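import Mathlib

/-! Integrals over finite configurations of points. -/

namespace Vale.Agent.P171

open MeasureTheory Finset
open scoped ENNReal Nat

variable {E : Type} [MeasurableSpace E]

/-- Measurability of a function of a finite configuration. -/
def Meas {β : Type*} [MeasurableSpace β] (f : Multiset E → β) : Prop :=
  ∀ (Ω : Type) [MeasurableSpace Ω] (l : Multiset (Ω → E)), (∀ g ∈ l, Measurable g) →
    Measurable fun ω => f (l.map fun g => g ω)

section MeasLemmas

variable {β γ : Type*} [MeasurableSpace β] [MeasurableSpace γ]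

lemma Meas.cons {f : Multiset E → β} (hf : Meas f) (x : E) : Meas fun X => f (x ::ₘ X) := by
  intro Ω _ l hl
  have := hf Ω ((fun _ => x) ::ₘ l) (by
    intro g hg
    rcases Multiset.mem_cons.mp hg with rfl | hg
    · exact measurable_const
    · exact hl g hg)
  simpa using this

lemma Meas.comp {f : Multiset E → β} (hf : Meas f) {g : β → γ} (hg : Measurable g) :
    Meas fun X => g (f X) := fun Ω _ l hl => hg.comp (hf Ω l hl)

lemma Meas.comp₂ {δ : Type*} [MeasurableSpace δ] {f : Multiset E → β} {f' : Multiset E → γ}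
    (hf : Meas f) (hf' : Meas f') {g : β × γ → δ} (hg : Measurable g) :
    Meas fun X => g (f X, f' X) := fun Ω _ l hl => hg.comp ((hf Ω l hl).prodMk (hf' Ω l hl))

lemma meas_const (c : β) : Meas fun _ : Multiset E => c := fun _ _ _ _ => measurable_const

lemma meas_card (g : ℕ → β) : Meas fun X : Multiset E => g X.card := fun _ _ l _ => by
  simp

lemma Meas.filter {f : Multiset E → β} (hf : Meas f) {Λ : Set E} [DecidablePred (· ∈ Λ)]
    (hΛ : MeasurableSet Λ) : Meas fun X => f (X.filter (· ∈ Λ)) := by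
  intro Ω _ l hl
  have key : ∀ l : Multiset (Ω → E), (∀ g ∈ l, Measurable g) → ∀ l₀ : Multiset (Ω → E),
      (∀ g ∈ l₀, Measurable g) → Measurable fun ω =>
        f ((l₀.map fun g => g ω) + (l.map fun g => g ω).filter (· ∈ Λ)) := by
    intro l
    induction l using Multiset.induction_on with
    | empty => intro _ l₀ h₀; simpa using hf Ω l₀ h₀
    | cons g l ih =>
      intro hl l₀ h₀
      have hg : Measurable g := hl g (Multiset.mem_cons_self _ _)
      have hl' : ∀ g ∈ l, Measurable g := fun g' h => hl g' (Multiset.mem_cons_of_mem h)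
      have h1 := ih hl' (g ::ₘ l₀) (by
        intro g' h
        rcases Multiset.mem_cons.mp h with rfl | h
        · exact hg
        · exact h₀ g' h)
      have h2 := ih hl' l₀ h₀
      classical
      have h3 := @Measurable.ite _ _ _ _ _ _ (fun ω => g ω ∈ Λ) inferInstance (hg hΛ) h1 h2
      convert h3 using 2 with ω
      by_cases h : g ω ∈ Λ <;> simp [h]
  simpa using key l hl 0 (by simp)

lemma Meas.map {f : Multiset E → β} (hf : Meas f) {t : E → E} (ht : Measurable t) :
    Meas fun X => f (X.map t) := by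
  intro Ω _ l hl
  have := hf Ω (l.map fun g => t ∘ g) (by
    intro g hg
    obtain ⟨g', h, rfl⟩ := Multiset.mem_map.mp hg
    exact ht.comp (hl g' h))
  simpa using this

lemma Meas.prod {ι : Type*} (s : Finset ι) {f : ι → Multiset E → ℝ≥0∞} (hf : ∀ i ∈ s, Meas (f i)) :
    Meas fun X => ∏ i ∈ s, f i X := fun Ω _ l hl =>
  Finset.measurable_prod s fun i hi => hf i hi Ω l hl

lemma Meas.mul {f g : Multiset E → ℝ≥0∞} (hf : Meas f) (hg : Meas g) :
    Meas fun X => f X * g X := fun Ω _ l hl => (hf Ω l hl).mul (hg Ω l hl)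

lemma Meas.add {f g : Multiset E → ℝ≥0∞} (hf : Meas f) (hg : Meas g) :
    Meas fun X => f X + g X := fun Ω _ l hl => (hf Ω l hl).add (hg Ω l hl)

end MeasLemmas

/-- The integral over `N` points. -/
noncomputable def intN (ν : Measure E) : ℕ → (Multiset E → ℝ≥0∞) → ℝ≥0∞
  | 0, f => f 0
  | N + 1, f => ∫⁻ x, intN ν N (fun X => f (x ::ₘ X)) ∂ν

lemma intN_zero (ν : Measure E) (f : Multiset E → ℝ≥0∞) : intN ν 0 f = f 0 := rfl

lemma intN_succ (ν : Measure E) (N : ℕ) (f : Multiset E → ℝ≥0∞) :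
    intN ν (N + 1) f = ∫⁻ x, intN ν N (fun X => f (x ::ₘ X)) ∂ν := rfl

lemma measurable_intN_aux (ν : Measure E) [SFinite ν] {f : Multiset E → ℝ≥0∞} (hf : Meas f)
    (N : ℕ) : ∀ (Ω : Type) [MeasurableSpace Ω] (l : Multiset (Ω → E)), (∀ g ∈ l, Measurable g) →
      Measurable fun ω => intN ν N fun X => f ((l.map fun g => g ω) + X) := by
  induction N with
  | zero => intro Ω _ l hl; simpa [intN_zero] using hf Ω l hl
  | succ N ih =>
    intro Ω _ l hl
    have := ih (Ω × E) (Prod.snd ::ₘ l.map fun g => g ∘ Prod.fst) (by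
      intro g hg
      rcases Multiset.mem_cons.mp hg with rfl | hg
      · exact measurable_snd
      · obtain ⟨g', h, rfl⟩ := Multiset.mem_map.mp hg
        exact (hl g' h).comp measurable_fst)
    have h2 := this.lintegral_prod_right' (ν := ν)
    simpa [intN_succ] using h2

lemma measurable_intN (ν : Measure E) [SFinite ν] {f : Multiset E → ℝ≥0∞} (hf : Meas f) (N : ℕ) :
    Measurable fun x => intN ν N fun X => f (x ::ₘ X) := by
  have := measurable_intN_aux ν hf N E {id} (by
    intro g hg; rw [Multiset.mem_singleton.mp hg]; exact measurable_id)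
  simpa using this

variable {μ : Measure E}

lemma intN_mono {Λ : Set E} (hΛ : MeasurableSet Λ) (N : ℕ) :
    ∀ {f g : Multiset E → ℝ≥0∞}, (∀ X, (∀ x ∈ X, x ∈ Λ) → X.card = N → f X ≤ g X) →
      intN (μ.restrict Λ) N f ≤ intN (μ.restrict Λ) N g := by
  induction N with
  | zero => intro f g h; exact h 0 (by simp) rfl
  | succ N ih =>
    intro f g h
    refine setLIntegral_mono' hΛ fun x hx => ih fun X hX hc => h _ ?_ (by simp [hc])
    intro y hy
    rcases Multiset.mem_cons.mp hy with rfl | hy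
    · exact hx
    · exact hX y hy

lemma intN_mono_meas {ν ν' : Measure E} (h : ν ≤ ν') (N : ℕ) :
    ∀ f : Multiset E → ℝ≥0∞, intN ν N f ≤ intN ν' N f := by
  induction N with
  | zero => intro f; exact le_rfl
  | succ N ih => intro f; exact lintegral_mono' h fun x => ih _

lemma intN_add (ν : Measure E) [SFinite ν] (N : ℕ) : ∀ {f g : Multiset E → ℝ≥0∞}, Meas f →
    intN ν N (fun X => f X + g X) = intN ν N f + intN ν N g := by
  induction N with
  | zero => intro f g _; rfl
  | succ N ih =>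
    intro f g hf
    simp only [intN_succ]
    rw [← lintegral_add_left (measurable_intN ν hf N)]
    exact lintegral_congr fun x => ih (hf.cons x)

lemma intN_const_mul (ν : Measure E) (N : ℕ) {c : ℝ≥0∞} (hc : c ≠ ∞) :
    ∀ f : Multiset E → ℝ≥0∞, intN ν N (fun X => c * f X) = c * intN ν N f := by
  induction N with
  | zero => intro f; rfl
  | succ N ih =>
    intro f
    simp only [intN_succ]
    rw [← lintegral_const_mul' _ _ hc]
    exact lintegral_congr fun x => ih _

lemma intN_card (ν : Measure E) (N : ℕ) : ∀ g : ℕ → ℝ≥0∞,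
    intN ν N (fun X => g X.card) = g N * ν Set.univ ^ N := by
  induction N with
  | zero => intro g; simp [intN_zero]
  | succ N ih =>
    intro g
    simp only [intN_succ, Multiset.card_cons]
    rw [ih fun n => g (n + 1), lintegral_const, pow_succ, mul_assoc]

lemma intN_map {t : E → E} (ht : MeasurePreserving t μ μ) (he : MeasurableEmbedding t)
    (Λ : Set E) (N : ℕ) : ∀ f : Multiset E → ℝ≥0∞,
    intN (μ.restrict (t ⁻¹' Λ)) N (fun X => f (X.map t)) = intN (μ.restrict Λ) N f := by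
  induction N with
  | zero => intro f; simp [intN_zero]
  | succ N ih =>
    intro f
    simp only [intN_succ, Multiset.map_cons]
    rw [← ht.setLIntegral_comp_preimage_emb he _ Λ]
    exact lintegral_congr fun x => ih fun X => f (t x ::ₘ X)

lemma intN_union [SFinite μ] {Λ₁ Λ₂ : Set E} [DecidablePred (· ∈ Λ₁)] [DecidablePred (· ∈ Λ₂)]
    (h₁ : MeasurableSet Λ₁) (h₂ : MeasurableSet Λ₂)
    (hd : Disjoint Λ₁ Λ₂) (N : ℕ) : ∀ {f₁ f₂ : Multiset E → ℝ≥0∞}, Meas f₁ → Meas f₂ →
    intN (μ.restrict (Λ₁ ∪ Λ₂)) N (fun X => f₁ (X.filter (· ∈ Λ₁)) * f₂ (X.filter (· ∈ Λ₂))) =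
      ∑ ij ∈ antidiagonal N, (N.choose ij.1 : ℝ≥0∞) *
        (intN (μ.restrict Λ₁) ij.1 f₁ * intN (μ.restrict Λ₂) ij.2 f₂) := by
  induction N with
  | zero => intro f₁ f₂ _ _; simp [intN_zero]
  | succ N ih =>
    intro f₁ f₂ hf₁ hf₂
    rw [sum_antidiagonal_choose_succ_mul
      (fun i j => intN (μ.restrict Λ₁) i f₁ * intN (μ.restrict Λ₂) j f₂), intN_succ,
      lintegral_union h₂ hd, add_comm]
    congr 1
    · rw [setLIntegral_congr_fun h₂ (g := fun x => ∑ ij ∈ antidiagonal N, (N.choose ij.1 : ℝ≥0∞) *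
        (intN (μ.restrict Λ₁) ij.1 f₁ * intN (μ.restrict Λ₂) ij.2 fun X => f₂ (x ::ₘ X)))]
      · rw [lintegral_finsetSum _ fun ij _ =>
          ((measurable_intN _ hf₂ ij.2).const_mul _).const_mul _]
        refine sum_congr rfl fun ij _ => ?_
        rw [lintegral_const_mul _ ((measurable_intN _ hf₂ ij.2).const_mul _),
          lintegral_const_mul _ (measurable_intN _ hf₂ ij.2), intN_succ]
      · intro x hx
        have hx1 : x ∉ Λ₁ := fun h => hd.le_bot ⟨h, hx⟩
        simp only [Multiset.filter_cons_of_pos _ hx, Multiset.filter_cons_of_neg _ hx1]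
        exact ih hf₁ (hf₂.cons x)
    · rw [setLIntegral_congr_fun h₁ (g := fun x => ∑ ij ∈ antidiagonal N, (N.choose ij.1 : ℝ≥0∞) *
        ((intN (μ.restrict Λ₁) ij.1 fun X => f₁ (x ::ₘ X)) * intN (μ.restrict Λ₂) ij.2 f₂))]
      · rw [lintegral_finsetSum _ fun ij _ =>
          ((measurable_intN _ hf₁ ij.1).mul_const _).const_mul _]
        refine sum_congr rfl fun ij hij => ?_
        rw [lintegral_const_mul _ ((measurable_intN _ hf₁ ij.1).mul_const _),
          lintegral_mul_const _ (measurable_intN _ hf₁ ij.1), intN_succ,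
          Nat.choose_symm_of_eq_add (mem_antidiagonal.mp hij).symm]
      · intro x hx
        have hx2 : x ∉ Λ₂ := fun h => hd.le_bot ⟨hx, h⟩
        simp only [Multiset.filter_cons_of_pos _ hx, Multiset.filter_cons_of_neg _ hx2]
        exact ih (hf₁.cons x) hf₂

lemma intN_eq_pi (ν : Measure E) [SigmaFinite ν] (N : ℕ) : ∀ {f : Multiset E → ℝ≥0∞}, Meas f →
    intN ν N f = ∫⁻ x : Fin N → E, f (univ.val.map x) ∂(Measure.pi fun _ => ν) := by
  induction N with
  | zero => intro f _; simp [intN_zero]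
  | succ N ih =>
    intro f hf
    have hm : Measurable fun p : E × (Fin N → E) => f (p.1 ::ₘ univ.val.map p.2) := by
      have := hf (E × (Fin N → E)) (Prod.fst ::ₘ univ.val.map fun i p => p.2 i) (by
        intro g hg
        rcases Multiset.mem_cons.mp hg with rfl | hg
        · exact measurable_fst
        · obtain ⟨i, -, rfl⟩ := Multiset.mem_map.mp hg
          fun_prop)
      simpa [Function.comp_def] using this
    have h1 := (measurePreserving_piFinSuccAbove (fun _ : Fin (N + 1) => ν) 0).lintegral_comp hm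
    rw [lintegral_prod _ hm.aemeasurable] at h1
    rw [intN_succ, lintegral_congr fun x => ih (hf.cons x), ← h1]
    refine lintegral_congr fun x => ?_
    simp [Fin.univ_val_map, List.ofFn_succ, MeasurableEquiv.piFinSuccAbove, Fin.tail_def]

/-- The integral over all finite configurations, with the factorial weights. -/
noncomputable def conf (ν : Measure E) (f : Multiset E → ℝ≥0∞) : ℝ≥0∞ :=
  ∑' N, (N ! : ℝ≥0∞)⁻¹ * intN ν N f

lemma conf_mono {Λ : Set E} (hΛ : MeasurableSet Λ) {f g : Multiset E → ℝ≥0∞}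
    (h : ∀ X, (∀ x ∈ X, x ∈ Λ) → f X ≤ g X) : conf (μ.restrict Λ) f ≤ conf (μ.restrict Λ) g :=
  ENNReal.tsum_le_tsum fun N => mul_le_mul_right (intN_mono hΛ N fun X hX _ => h X hX) _

lemma conf_mono_set {Λ Λ' : Set E} (h : Λ ⊆ Λ') (f : Multiset E → ℝ≥0∞) :
    conf (μ.restrict Λ) f ≤ conf (μ.restrict Λ') f :=
  ENNReal.tsum_le_tsum fun N => mul_le_mul_right (intN_mono_meas (μ.restrict_mono_set h) N f) _

lemma conf_add (ν : Measure E) [SFinite ν] {f g : Multiset E → ℝ≥0∞} (hf : Meas f) :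
    conf ν (fun X => f X + g X) = conf ν f + conf ν g := by
  simp only [conf, intN_add ν _ hf, mul_add, ENNReal.tsum_add]

lemma conf_const_mul (ν : Measure E) {c : ℝ≥0∞} (hc : c ≠ ∞) (f : Multiset E → ℝ≥0∞) :
    conf ν (fun X => c * f X) = c * conf ν f := by
  simp only [conf, intN_const_mul ν _ hc, ← ENNReal.tsum_mul_left, mul_left_comm]

lemma conf_sum (ν : Measure E) [SFinite ν] {ι : Type*} (s : Finset ι) {f : ι → Multiset E → ℝ≥0∞}
    (hf : ∀ i, Meas (f i)) : conf ν (fun X => ∑ i ∈ s, f i X) = ∑ i ∈ s, conf ν (f i) := by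
  classical
  induction s using Finset.induction_on with
  | empty => simpa using conf_const_mul ν ENNReal.zero_ne_top fun _ => 0
  | insert a s ha ih => simp only [sum_insert ha, conf_add ν (hf a), ih]

lemma le_conf (ν : Measure E) (f : Multiset E → ℝ≥0∞) : f 0 ≤ conf ν f := by
  simpa [intN_zero, conf] using ENNReal.le_tsum (f := fun N => (N ! : ℝ≥0∞)⁻¹ * intN ν N f) 0

lemma conf_map {t : E → E} (ht : MeasurePreserving t μ μ) (he : MeasurableEmbedding t)
    (Λ : Set E) (f : Multiset E → ℝ≥0∞) :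
    conf (μ.restrict (t ⁻¹' Λ)) (fun X => f (X.map t)) = conf (μ.restrict Λ) f := by
  simp only [conf, intN_map ht he]

lemma conf_exp (ν : Measure E) {v c : ℝ} (hv : 0 ≤ v) (h : ν Set.univ = ENNReal.ofReal v) :
    conf ν (fun X => ENNReal.ofReal (Real.exp (c * X.card))) =
      ENNReal.ofReal (Real.exp (Real.exp c * v)) := by
  have h1 := NormedSpace.expSeries_div_hasSum_exp (Real.exp c * v)
  rw [← Real.exp_eq_exp_ℝ] at h1
  rw [← h1.tsum_eq, ENNReal.ofReal_tsum_of_nonneg (fun n => by positivity) h1.summable]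
  refine tsum_congr fun N => ?_
  rw [intN_card ν N fun n => ENNReal.ofReal (Real.exp (c * n)), h,
    ENNReal.ofReal_div_of_pos (by positivity), ENNReal.ofReal_natCast, mul_pow,
    ENNReal.ofReal_mul (by positivity), ← ENNReal.ofReal_pow hv, ← Real.exp_nat_mul, mul_comm c,
    div_eq_mul_inv, mul_comm]

lemma conf_one (ν : Measure E) :
    conf ν (fun X => if X.card = 1 then 1 else 0) = ν Set.univ := by
  unfold conf
  rw [tsum_eq_single 1]
  · rw [intN_card ν 1 fun n => if n = 1 then 1 else 0]; simp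
  · intro N hN
    rw [intN_card ν N fun n => if n = 1 then 1 else 0]; simp [hN]

lemma tsum_mul_antidiag (f g : ℕ → ℝ≥0∞) :
    (∑' n, f n) * ∑' n, g n = ∑' n, ∑ ij ∈ antidiagonal n, f ij.1 * g ij.2 := by
  have h1 : (∑' n, f n) * ∑' n, g n = ∑' p : ℕ × ℕ, f p.1 * g p.2 := by
    rw [ENNReal.tsum_prod', ← ENNReal.tsum_mul_right]
    simp only [ENNReal.tsum_mul_left]
  rw [h1, ← (Finset.HasAntidiagonal.sigmaAntidiagonalEquivProd (A := ℕ)).tsum_eq, ENNReal.tsum_sigma']
  refine tsum_congr fun n => ?_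
  rw [← Finset.tsum_subtype (antidiagonal n) fun ij => f ij.1 * g ij.2]
  rfl

lemma conf_union [SFinite μ] {Λ₁ Λ₂ : Set E} [DecidablePred (· ∈ Λ₁)] [DecidablePred (· ∈ Λ₂)]
    (h₁ : MeasurableSet Λ₁) (h₂ : MeasurableSet Λ₂)
    (hd : Disjoint Λ₁ Λ₂) {f₁ f₂ : Multiset E → ℝ≥0∞} (hf₁ : Meas f₁) (hf₂ : Meas f₂) :
    conf (μ.restrict (Λ₁ ∪ Λ₂)) (fun X => f₁ (X.filter (· ∈ Λ₁)) * f₂ (X.filter (· ∈ Λ₂))) =
      conf (μ.restrict Λ₁) f₁ * conf (μ.restrict Λ₂) f₂ := by
  unfold conf
  rw [tsum_mul_antidiag]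
  refine tsum_congr fun N => ?_
  rw [intN_union h₁ h₂ hd N hf₁ hf₂, mul_sum]
  refine sum_congr rfl fun ij hij => ?_
  have h := mem_antidiagonal.mp hij
  have h1 : ((N.choose ij.1 * ij.1 ! * ij.2 ! : ℕ) : ℝ≥0∞) = N ! := by
    rw [← h, Nat.choose_symm_add, Nat.add_choose_mul_factorial_mul_factorial]
  have h2 : (N ! : ℝ≥0∞)⁻¹ * (N.choose ij.1 : ℝ≥0∞) = (ij.1 ! : ℝ≥0∞)⁻¹ * (ij.2 ! : ℝ≥0∞)⁻¹ := by
    have hc : (N.choose ij.1 : ℝ≥0∞) ≠ 0 := by
      exact_mod_cast (Nat.choose_pos (by omega)).ne'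
    rw [← h1]
    push_cast
    rw [ENNReal.mul_inv (Or.inr (by simp)) (Or.inr (by simp [Nat.factorial_ne_zero])),
      ENNReal.mul_inv (Or.inr (by simp)) (Or.inr (by simp [Nat.factorial_ne_zero]))]
    calc _ = ((N.choose ij.1 : ℝ≥0∞)⁻¹ * N.choose ij.1) *
          ((ij.1 ! : ℝ≥0∞)⁻¹ * (ij.2 ! : ℝ≥0∞)⁻¹) := by ring
      _ = _ := by rw [ENNReal.inv_mul_cancel hc (by simp), one_mul]
  rw [← mul_assoc, h2]; ring

open Classical in
theorem conf_biUnion [SFinite μ] {ι : Type*} (Λ : ι → Set E) (hΛ : ∀ i, MeasurableSet (Λ i))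
    (hd : Pairwise fun i j => Disjoint (Λ i) (Λ j)) {f : ι → Multiset E → ℝ≥0∞}
    (hf : ∀ i, Meas (f i)) (s : Finset ι) :
    conf (μ.restrict (⋃ i ∈ s, Λ i)) (fun X => ∏ i ∈ s, f i (X.filter (· ∈ Λ i))) =
      ∏ i ∈ s, conf (μ.restrict (Λ i)) (f i) := by
  induction s using Finset.induction_on with
  | empty => simpa using conf_exp (0 : Measure E) (v := 0) (c := 0) le_rfl (by simp)
  | insert a s ha ih =>
    have hU : MeasurableSet (⋃ i ∈ s, Λ i) := s.measurableSet_biUnion fun i _ => hΛ i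
    rw [prod_insert ha, ← ih, set_biUnion_insert, ← conf_union (hΛ a) hU ?_ (hf a)
      (Meas.prod s fun i _ => (hf i).filter (hΛ i))]
    · congr 1
      funext X
      rw [prod_insert ha]
      congr 1
      refine prod_congr rfl fun i hi => ?_
      rw [Multiset.filter_filter]
      congr 1
      refine Multiset.filter_congr fun x _ => ⟨fun h => ⟨h, Set.mem_biUnion hi h⟩, fun h => h.1⟩
    · rw [Set.disjoint_iUnion₂_right]
      intro i hi
      exact hd fun h => ha (h ▸ hi)

end Vale.Agent.P171
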