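import Mathlib

namespace Vale.Agent.P171

open MeasureTheory

/-- Three-dimensional Euclidean space. -/
abbrev Space := EuclideanSpace ℝ (Fin 3)

/-- The energy of `N` particles: the sum of `φ` over unordered pairs. -/
noncomputable def energy (φ : ℝ → ℝ) {N : ℕ} (x : Fin N → Space) : ℝ :=
  ∑ i, ∑ j, if i < j then φ (dist (x i) (x j)) else 0

/-- Stability of the pair potential. -/
def IsStable (φ : ℝ → ℝ) : Prop :=
  ∃ B : ℝ, ∀ (N : ℕ) (x : Fin N → Space), Function.Injective x → -B * N ≤ energy φ x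

/-- Temperedness of the pair potential. -/
def IsTempered (φ : ℝ → ℝ) : Prop :=
  ∃ C ε R₀ : ℝ, 0 < C ∧ 0 < ε ∧ 0 < R₀ ∧ ∀ r, R₀ ≤ r → φ r ≤ C * r ^ (-3 - ε)

/-- The cube `[0, L]^3`. -/
def box (L : ℝ) : Set Space := {x | ∀ i, x i ∈ Set.Icc 0 L}

/-- The Boltzmann factor. -/
noncomputable def boltz (φ : ℝ → ℝ) (β : ℝ) {N : ℕ} (x : Fin N → Space) : ℝ :=
  Real.exp (-β * energy φ x)

/-- The canonical partition function of `N` particles in the cube of side `L`. -/
noncomputable def partitionFn (φ : ℝ → ℝ) (β L : ℝ) (N : ℕ) : ℝ :=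
  (1 / (N.factorial : ℝ)) * ∫ x in Set.univ.pi (fun _ : Fin N => box L), boltz φ β x

/-- The grand canonical partition function at activity `z`. -/
noncomputable def grand (φ : ℝ → ℝ) (β z L : ℝ) : ℝ :=
  ∑' N : ℕ, z ^ N * partitionFn φ β L N

end Vale.Agent.P171
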