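import Vale.Agent.P171.Upper

/-! The variational argument. -/

namespace Vale.Agent.P171

open MeasureTheory Finset Filter
open scoped ENNReal Topology

/-- Ekeland's variational principle. -/
theorem ekeland {X : Type*} [MetricSpace X] [CompleteSpace X] (G : X → ℝ) (h0 : ∀ x, 0 ≤ G x)
    (hcl : ∀ g : X → ℝ, Continuous g → IsClosed {y | G y ≤ g y}) {ε : ℝ} (hε : 0 < ε) (x₀ : X) :
    ∃ x, G x + ε * dist x x₀ ≤ G x₀ ∧ ∀ y, G x ≤ G y + ε * dist y x := by
  have step : ∀ (x : X) (m : ℕ), ∃ y, G y + ε * dist y x ≤ G x ∧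
      ∀ z, G z + ε * dist z x ≤ G x → G y ≤ G z + (1 / 2) ^ m := by
    intro x m
    have hne : (G '' {y | G y + ε * dist y x ≤ G x}).Nonempty := ⟨G x, x, by simp, rfl⟩
    have hb : BddBelow (G '' {y | G y + ε * dist y x ≤ G x}) := ⟨0, by rintro _ ⟨y, -, rfl⟩; exact h0 y⟩
    obtain ⟨_, ⟨y, hy, rfl⟩, h⟩ := Real.lt_sInf_add_pos hne (show (0 : ℝ) < (1 / 2) ^ m by positivity)
    exact ⟨y, hy, fun z hz => h.le.trans (by gcongr; exact csInf_le hb ⟨z, hz, rfl⟩)⟩
  choose f hf1 hf2 using step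
  let u : ℕ → X := fun m => Nat.rec x₀ (fun m x => f x m) m
  have hu : ∀ m, u (m + 1) = f (u m) m := fun m => rfl
  have trans : ∀ {x y z : X}, G y + ε * dist y x ≤ G x → G z + ε * dist z y ≤ G y →
      G z + ε * dist z x ≤ G x := fun {x y z} h1 h2 => by
    have := mul_le_mul_of_nonneg_left (dist_triangle z y x) hε.le
    linarith
  have chain : ∀ m k, G (u (m + k)) + ε * dist (u (m + k)) (u m) ≤ G (u m) := by
    intro m k
    induction k with
    | zero => simp
    | succ k ih => exact trans ih (hf1 _ _)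
  have small : ∀ m z, G z + ε * dist z (u (m + 1)) ≤ G (u (m + 1)) →
      dist z (u (m + 1)) ≤ (1 / 2) ^ m / ε := by
    intro m z hz
    have := hf2 (u m) m z (trans (hf1 _ _) hz)
    rw [le_div_iff₀ hε, ← hu] at *
    linarith
  have hlim : Tendsto (fun m : ℕ => (1 / 2 : ℝ) ^ m / ε) atTop (𝓝 0) := by
    simpa using (tendsto_pow_atTop_nhds_zero_of_lt_one (show (0 : ℝ) ≤ 1 / 2 by norm_num)
      (by norm_num)).div_const ε
  have hc : CauchySeq fun m => u (m + 1) := by
    refine cauchySeq_of_le_tendsto_0' _ (fun m k hk => ?_) hlim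
    obtain ⟨j, rfl⟩ := Nat.exists_eq_add_of_le hk
    rw [dist_comm]
    refine small m _ ?_
    have := chain (m + 1) j
    rwa [show m + 1 + j = m + j + 1 by ring] at this
  obtain ⟨x, hx⟩ := cauchySeq_tendsto_of_complete hc
  have hxm : ∀ m, G x + ε * dist x (u m) ≤ G (u m) := by
    intro m
    have h1 := (hcl (fun y => G (u m) - ε * dist y (u m)) (by fun_prop)).mem_of_tendsto hx (by
      filter_upwards [eventually_ge_atTop m] with k hk
      obtain ⟨j, rfl⟩ := Nat.exists_eq_add_of_le hk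
      have := chain m (j + 1)
      change G (u (m + (j + 1))) ≤ G (u m) - ε * dist (u (m + (j + 1))) (u m)
      linarith)
    simp only [Set.mem_ofPred_eq] at h1
    linarith
  refine ⟨x, hxm 0, fun y => ?_⟩
  by_contra hy
  push Not at hy
  have h1 : Tendsto (fun m => u (m + 1)) atTop (𝓝 y) := by
    rw [tendsto_iff_dist_tendsto_zero]
    refine squeeze_zero (fun _ => dist_nonneg) (fun m => ?_) hlim
    rw [dist_comm]
    exact small m y (trans (hxm (m + 1)) hy.le)
  rw [tendsto_nhds_unique h1 hx] at hy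
  simp at hy

variable {a a' : ℕ → ℝ} {n n' H : ℝ}

lemma wt_le_near {d μ μ' : ℝ} (hd : ∀ r, |Psi a r - Psi a' r| ≤ d)
    (hμ : |μ - μ'| ≤ d) (X : Multiset Space) :
    wt H a μ X ≤ ENNReal.ofReal (Real.exp (2 * X.card ^ 2 * d)) * wt H a' μ' X := by
  unfold wt
  rw [← ENNReal.ofReal_mul (Real.exp_pos _).le, ← Real.exp_add]
  refine ENNReal.ofReal_le_ofReal (Real.exp_le_exp.mpr ?_)
  have hd0 : 0 ≤ d := (abs_nonneg _).trans hμ
  have h1 : S2 X (fun x y => phi H a' (dist x y)) ≤ S2 X (fun x y => phi H a (dist x y) + d) :=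
    S2_mono fun x _ y _ => by have := abs_le.mp (hd (dist x y)); unfold phi; linarith
  rw [S2_add, S2_const] at h1
  have h2 : phi H a 0 ≤ phi H a' 0 + d := by have := abs_le.mp (hd 0); unfold phi; linarith
  have h3 := mul_le_mul_of_nonneg_left h2 (Nat.cast_nonneg (α := ℝ) X.card)
  have h4 := mul_le_mul_of_nonneg_right (abs_le.mp hμ).2 (Nat.cast_nonneg (α := ℝ) X.card)
  have h5 : (X.card : ℝ) ≤ X.card ^ 2 := by exact_mod_cast Nat.le_self_pow two_ne_zero _
  have h6 := mul_le_mul_of_nonneg_right h5 hd0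
  unfold U
  nlinarith

lemma trunc_le {d μ μ' : ℝ} (hd : ∀ r, |Psi a r - Psi a' r| ≤ d)
    (hμ : |μ - μ'| ≤ d) (L : ℝ) (M : ℕ) :
    ∑ N ∈ range M, (N.factorial : ℝ≥0∞)⁻¹ * intN (volume.restrict (box L)) N (wt H a μ) ≤
      ENNReal.ofReal (Real.exp (2 * M ^ 2 * d)) * Xi H a' μ' L := by
  have hd0 : 0 ≤ d := (abs_nonneg _).trans hμ
  rw [Xi, ← conf_const_mul _ ENNReal.ofReal_ne_top]
  refine le_trans (sum_le_sum fun N hN => ?_) (ENNReal.sum_le_tsum (range M))
  refine mul_le_mul_right (intN_mono (measurableSet_box L) N fun X _ hX => ?_) _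
  refine (wt_le_near hd hμ X).trans ?_
  have : (X.card : ℝ) ≤ M := by rw [hX]; exact_mod_cast (mem_range.mp hN).le
  gcongr

/-- The parameter space of the variational argument. -/
def Par (A : ℝ) : Set (lp (fun _ : ℕ => ℝ) 1 × ℝ) := {p | (∀ k, 0 ≤ p.1 k) ∧ ‖p.1‖ ≤ A}

lemma isClosed_Par (A : ℝ) : IsClosed (Par A) := by
  have h1 : IsClosed {p : lp (fun _ : ℕ => ℝ) 1 × ℝ | ∀ k, 0 ≤ p.1 k} := by
    simp only [Set.ofPred_forall]
    exact isClosed_iInter fun k => isClosed_le continuous_const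
      ((lp.lipschitzWith_one_eval 1 k).continuous.comp continuous_fst)
  exact h1.inter (isClosed_le (continuous_norm.comp continuous_fst) continuous_const)

lemma hasSum_abs (b : lp (fun _ : ℕ => ℝ) 1) : HasSum (fun k => |b k|) ‖b‖ := by
  simpa using lp.hasSum_norm (p := 1) (by simp) b

lemma adm_of {b : lp (fun _ : ℕ => ℝ) 1} (h : ∀ k, 0 ≤ b k) : Adm b ‖b‖ :=
  ⟨h, by simpa only [abs_of_nonneg (h _)] using hasSum_abs b⟩

lemma good_of {A : ℝ} (p : Par A) : Good (23 ^ 3 * A + 2) p.1.1 ‖p.1.1‖ :=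
  ⟨adm_of p.2.1, by have := p.2.2; linarith⟩

lemma Psi_near {b b' : lp (fun _ : ℕ => ℝ) 1} (h : ∀ k, 0 ≤ b k) (h' : ∀ k, 0 ≤ b' k) (r : ℝ) :
    |Psi b r - Psi b' r| ≤ dist b b' := by
  rw [dist_eq_norm]
  refine (((adm_of h).hasSum_Psi r).sub ((adm_of h').hasSum_Psi r)).norm_le_of_bounded
    (hasSum_abs (b - b')) fun k => ?_
  rw [← sub_mul, Real.norm_eq_abs, abs_mul, abs_of_nonneg (psi_nonneg k r)]
  exact mul_le_of_le_one_right (abs_nonneg _) (psi_le_one k r)

lemma isClosed_press {A : ℝ} (g : Par A → ℝ) (hg : Continuous g) :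
    IsClosed {p : Par A | press (23 ^ 3 * A + 2) p.1.1 p.1.2 ≤ g p} := by
  refine isSeqClosed_iff_isClosed.mp fun u p hu hp => press_le fun S => ?_
  rw [(good_of p).lg_le_iff, Xi, conf, ENNReal.tsum_eq_iSup_nat]
  refine iSup_le fun M => ?_
  have h1 : Tendsto (fun m => ENNReal.ofReal (Real.exp (2 * M ^ 2 * dist p (u m) +
      ((S : ℝ) + 3) ^ 3 * g (u m)))) atTop
      (𝓝 (ENNReal.ofReal (Real.exp (2 * M ^ 2 * dist p p + ((S : ℝ) + 3) ^ 3 * g p)))) := by
    have : Continuous fun q : Par A => ENNReal.ofReal (Real.exp (2 * M ^ 2 * dist p q +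
      ((S : ℝ) + 3) ^ 3 * g q)) := ENNReal.continuous_ofReal.comp (by fun_prop)
    exact (this.tendsto p).comp hp
  rw [dist_self, mul_zero, zero_add] at h1
  refine ge_of_tendsto' h1 fun m => ?_
  have h2 : dist p.1.1 (u m).1.1 ≤ dist p (u m) := by
    rw [Subtype.dist_eq, Prod.dist_eq]; exact le_max_left _ _
  have h3 : dist p.1.2 (u m).1.2 ≤ dist p (u m) := by
    rw [Subtype.dist_eq, Prod.dist_eq]; exact le_max_right _ _
  refine (trunc_le (fun r => (Psi_near p.2.1 (u m).2.1 r).trans h2) h3 S M).trans ?_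
  rw [Real.exp_add, ENNReal.ofReal_mul (Real.exp_pos _).le]
  gcongr
  exact (good_of (u m)).lg_le_iff.mp (((good_of (u m)).lg_le_press _ S).trans
    (mul_le_mul_of_nonneg_left (hu m) (by positivity)))

lemma press_zero (hg : Good H a 0) : press H a 0 ≤ 1 := by
  refine press_le fun S => ?_
  rw [hg.lg_le_iff]
  refine (Xi_le_of (c := 0) (Nat.cast_nonneg S) fun X => ?_).trans
    (ENNReal.ofReal_le_ofReal (Real.exp_le_exp.mpr ?_))
  · have h1 := hg.U_ge hg.H_nonneg X
    have h2 := mul_le_mul_of_nonneg_left (card_le_Q X) hg.H_nonneg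
    linarith
  · rw [Real.exp_zero, one_mul, mul_one]; gcongr; linarith

lemma aux_nonneg {F u ρ : ℝ} (hρ : 0 < ρ) (hρ1 : ρ ≤ 1 / 125) (h1 : u / 125 ≤ F) (h2 : 0 ≤ F) :
    0 ≤ F - ρ * u := by
  rcases le_total 0 u with h | h
  · nlinarith
  · nlinarith [mul_nonneg hρ.le (neg_nonneg.mpr h)]

/-- The stationary point of the variational argument. -/
theorem exists_point {ρ : ℝ} (hρ : 0 < ρ) (hρ1 : ρ ≤ 1 / 125) :
    ∃ (H : ℝ) (a : ℕ → ℝ) (n μ : ℝ), Good H a n ∧
      (∀ s, 0 < s → press H a μ ≤ press H a (μ - s) + 5 / 4 * ρ * s) ∧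
      ∀ (k : ℕ) (t : ℝ), 0 < t → t ≤ 1 → ∃ a' n', Good H a' n' ∧
        (∀ r, Psi a' r = Psi a r + t * psi k r) ∧ press H a μ + t * ρ / 4 ≤ press H a' μ := by
  obtain ⟨A, hA⟩ : ∃ A, A = 4 / ρ + 1 := ⟨_, rfl⟩
  have hA0 : 0 ≤ A := by rw [hA]; positivity
  have : CompleteSpace (Par A) := (isClosed_Par A).completeSpace_coe
  obtain ⟨x, hx1, hx2⟩ := ekeland (X := Par A)
    (fun p => press (23 ^ 3 * A + 2) p.1.1 p.1.2 - ρ * (p.1.2 + ‖p.1.1‖ / 2))
    (fun p => aux_nonneg hρ hρ1 ((good_of p).press_ge p.1.2) ((good_of p).press_nonneg p.1.2))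
    (fun g hg => by
      simp only [sub_le_iff_le_add]
      exact isClosed_press _ (by fun_prop))
    (show 0 < ρ / 4 by positivity) ⟨(0, 0), by simp [Par, hA0]⟩
  have hG0 : 0 ≤ press (23 ^ 3 * A + 2) x.1.1 x.1.2 - ρ * (x.1.2 + ‖x.1.1‖ / 2) :=
    aux_nonneg hρ hρ1 ((good_of x).press_ge x.1.2) ((good_of x).press_nonneg x.1.2)
  have hn : ‖x.1.1‖ + 1 ≤ A := by
    have h1 := press_zero (H := 23 ^ 3 * A + 2) (a := (0 : lp (fun _ : ℕ => ℝ) 1))
      (by simpa using good_of (A := A) ⟨(0, 0), by simp [Par, hA0]⟩)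
    have h2 : ‖x.1.1‖ ≤ dist x ⟨(0, 0), by simp [Par, hA0]⟩ := by
      rw [Subtype.dist_eq, Prod.dist_eq, dist_zero_right]; exact le_max_left _ _
    simp only [norm_zero, zero_div, add_zero, mul_zero, sub_zero] at hx1
    have h3 := mul_le_mul_of_nonneg_left h2 (show 0 ≤ ρ / 4 by positivity)
    have h5 := h3.trans ((le_add_of_nonneg_left hG0).trans (hx1.trans h1))
    have h4 : ‖x.1.1‖ ≤ 4 / ρ := by rw [le_div_iff₀ hρ]; linarith
    linarith
  refine ⟨_, x.1.1, _, x.1.2, good_of x, fun s hs => ?_, fun k t ht ht1 => ?_⟩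
  · have h1 := hx2 ⟨(x.1.1, x.1.2 - s), x.2⟩
    rw [Subtype.dist_eq, Prod.dist_eq] at h1
    simp only [dist_self, Real.dist_eq, sub_sub_cancel_left, abs_neg, abs_of_pos hs,
      max_eq_right hs.le] at h1
    linarith
  · have h0 : ∀ j, 0 ≤ (x.1.1 + lp.single (E := fun _ : ℕ => ℝ) 1 k t) j := fun j => by
      have := x.2.1 j
      simp only [lp.coeFn_add, Pi.add_apply, lp.single_apply, Pi.single_apply]
      split_ifs <;> linarith
    have hs : HasSum (fun j => lp.single (E := fun _ : ℕ => ℝ) 1 k t j) t := by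
      simpa [lp.single_apply] using hasSum_pi_single k t
    have hnorm : ‖x.1.1 + lp.single (E := fun _ : ℕ => ℝ) 1 k t‖ = ‖x.1.1‖ + t :=
      (adm_of h0).hasSum.unique ((adm_of x.2.1).hasSum.add hs)
    let y : Par A := ⟨(x.1.1 + lp.single (E := fun _ : ℕ => ℝ) 1 k t, x.1.2), h0, by
      rw [hnorm]; linarith⟩
    refine ⟨_, _, good_of y, fun r => ?_, ?_⟩
    · refine ((adm_of h0).hasSum_Psi r).unique ?_
      have h1 := ((adm_of x.2.1).hasSum_Psi r).add (hasSum_pi_single k (t * psi k r))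
      have h2 : (fun j => (x.1.1 + lp.single (E := fun _ : ℕ => ℝ) 1 k t) j * psi j r) =
          fun j => x.1.1 j * psi j r + (Pi.single k (t * psi k r) : ℕ → ℝ) j := by
        funext j
        simp only [lp.coeFn_add, Pi.add_apply, lp.single_apply, Pi.single_apply]
        split_ifs with hj
        · rw [hj]; ring
        · ring
      rw [h2]; exact h1
    · have h1 := hx2 y
      rw [Subtype.dist_eq, Prod.dist_eq] at h1
      simp only [y, dist_self, dist_self_add_left, hnorm, lp.norm_single (E := fun _ : ℕ => ℝ)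
        one_pos, Real.norm_of_nonneg ht.le, max_eq_left ht.le] at h1 ⊢
      linarith

theorem exists_kink : ∃ (H : ℝ) (a : ℕ → ℝ) (n μ : ℝ), Good H a n ∧
    ¬ DifferentiableAt ℝ (press H a) μ := by
  obtain ⟨ρ, hρ⟩ : ∃ ρ : ℝ, ρ = 1 / (16 * 23 ^ 3) := ⟨_, rfl⟩
  have hρ0 : 0 < ρ := by rw [hρ]; positivity
  obtain ⟨H, a, n, μ, hg, h1, h2⟩ := exists_point hρ0 (by rw [hρ]; norm_num)
  refine ⟨H, a, n, μ, hg, fun hd => ?_⟩
  have hd' := hd.hasDerivAt
  have h3 : deriv (press H a) μ ≤ 5 / 4 * ρ := by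
    refine le_of_tendsto hd'.tendsto_slope_zero_left ?_
    filter_upwards [self_mem_nhdsWithin] with s hs
    have hs' : s < 0 := hs
    have := h1 (-s) (by linarith)
    rw [sub_neg_eq_add] at this
    rw [smul_eq_mul, ← div_eq_inv_mul, div_le_iff_of_neg hs']
    linarith
  obtain ⟨h, hh1, hh0⟩ := ((hd'.tendsto_slope_zero_right.eventually
    (gt_mem_nhds (show deriv (press H a) μ < 3 / 2 * ρ by linarith))).and self_mem_nhdsWithin).exists
  have hh : 0 < h := hh0
  rw [smul_eq_mul, inv_mul_lt_iff₀ hh] at hh1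
  obtain ⟨q, hq⟩ : ∃ q, q = Real.exp (μ + H / 2) := ⟨_, rfl⟩
  have hq0 : 0 < q := by rw [hq]; positivity
  obtain ⟨t, ht⟩ : ∃ t : ℝ, t = min (1 / (2 * 23 ^ 3)) (h * ρ / (2 * 23 ^ 3 * q)) := ⟨_, rfl⟩
  have ht0 : 0 < t := by rw [ht]; positivity
  have ht1 : t ≤ 1 / (2 * 23 ^ 3) := by rw [ht]; exact min_le_left _ _
  have ht2 : t ≤ h * ρ / (2 * 23 ^ 3 * q) := by rw [ht]; exact min_le_right _ _
  rw [le_div_iff₀ (by positivity)] at ht1 ht2
  have hη : Tendsto (fun k : ℕ => eta a (k + 1)) atTop (𝓝 0) :=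
    hg.tendsto_eta.comp (tendsto_add_atTop_nat 1)
  have hlim : Tendsto (fun k : ℕ => eta a (k + 1) * q +
      (63 * (press H a μ + h * (3 / 2 * ρ)) + 2) / (k + 1)) atTop (𝓝 0) := by
    simpa [div_eq_mul_inv] using (hη.mul_const q).add
      (tendsto_one_div_add_atTop_nhds_zero_nat.const_mul (63 * (press H a μ + h * (3 / 2 * ρ)) + 2))
  obtain ⟨k, hk1, hk2⟩ := ((hη.eventually (gt_mem_nhds (show (0 : ℝ) < 1 / 2 by norm_num))).and
    (hlim.eventually (gt_mem_nhds (show (0 : ℝ) < t * ρ / 8 by positivity)))).exists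
  obtain ⟨a', n', hg', hP, h4⟩ := h2 k t ht0 (by linarith)
  have h5 := press_upper hg hg' (ρ := 2 * ρ) (σ := 3 / 2 * ρ) (h := h) (μ := μ) ht0.le hP hh.le
    (by positivity) (by linarith) (by linarith) (by rw [← hq]; linarith)
  rw [← hq] at h5
  have h6 : t * 23 ^ 3 / 2 * (2 * ρ) ^ 2 = t * ρ / 8 := by
    have : 16 * 23 ^ 3 * ρ = 1 := by rw [hρ]; norm_num
    linear_combination (t * ρ / 8) * this
  linarith

lemma Adm.measurable_energy (h : Adm a n) (N : ℕ) :
    Measurable fun x : Fin N → Space => energy (phi H a) x := by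
  have := h.meas_U (H := H) (Fin N → Space) (univ.val.map fun i x => x i) (by
    intro g hg
    obtain ⟨i, -, rfl⟩ := Multiset.mem_map.mp hg
    exact measurable_pi_apply i)
  simp only [Multiset.map_map, Function.comp_def] at this
  simpa only [← U_univ] using this

lemma Good.energy_ge (h : Good H a n) {N : ℕ} (x : Fin N → Space) :
    -(H / 2) * N ≤ energy (phi H a) x := by
  have h1 := h.U_ge' (univ.val.map x)
  have h2 := Q_nonneg (univ.val.map x)
  rw [U_univ] at h1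
  simp only [Multiset.card_map, card_val, card_univ, Fintype.card_fin] at h1
  linarith

lemma Good.integrable_boltz (h : Good H a n) (L : ℝ) (N : ℕ) :
    IntegrableOn (boltz (phi H a) 1) (Set.univ.pi fun _ : Fin N => box L) := by
  have hfin : volume (Set.univ.pi fun _ : Fin N => box L) < ∞ := by
    rw [volume_pi_pi]
    refine ENNReal.prod_lt_top fun _ _ => lt_of_le_of_lt (measure_mono (box_mono (le_max_left L 0))) ?_
    rw [volume_box (le_max_right L 0)]; exact ENNReal.ofReal_lt_top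
  refine Measure.integrableOn_of_bounded (M := Real.exp (H / 2 * N)) hfin.ne
    ((h.measurable_energy N).const_mul _).exp.aestronglyMeasurable (Eventually.of_forall fun x => ?_)
  rw [boltz, Real.norm_of_nonneg (Real.exp_pos _).le, Real.exp_le_exp]
  have := h.energy_ge x
  linarith

lemma Good.term_eq (h : Good H a n) {z : ℝ} (hz : 0 < z) (L : ℝ) (N : ℕ) :
    (N.factorial : ℝ≥0∞)⁻¹ * intN (volume.restrict (box L)) N (wt H a (Real.log z)) =
      ENNReal.ofReal (z ^ N * partitionFn (phi H a) 1 L N) := by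
  rw [intN_eq_pi _ N (h.meas_wt _), ← Measure.restrict_pi_pi, partitionFn,
    ENNReal.ofReal_mul (by positivity), ENNReal.ofReal_mul (by positivity),
    ofReal_integral_eq_lintegral_ofReal (h.integrable_boltz L N)
      (Eventually.of_forall fun x => (Real.exp_pos _).le), mul_left_comm,
    ← lintegral_const_mul' _ _ ENNReal.ofReal_ne_top, one_div,
    ENNReal.ofReal_inv_of_pos (by positivity), ENNReal.ofReal_natCast]
  congr 1
  refine lintegral_congr fun x => ?_
  rw [wt, U_univ, ← ENNReal.ofReal_mul (by positivity), boltz, sub_eq_add_neg, Real.exp_add,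
    mul_comm (Real.log z), Real.exp_nat_mul, Real.exp_log hz]
  simp

lemma partitionFn_nonneg (φ : ℝ → ℝ) (β L : ℝ) (N : ℕ) : 0 ≤ partitionFn φ β L N :=
  mul_nonneg (by positivity) (integral_nonneg fun _ => (Real.exp_pos _).le)

lemma Good.summable_grand (h : Good H a n) {z : ℝ} (hz : 0 < z) (L : ℝ) :
    Summable fun N => z ^ N * partitionFn (phi H a) 1 L N := by
  have h1 := h.Xi_ne_top (Real.log z) L
  simp only [Xi, conf, h.term_eq hz] at h1
  have := ENNReal.summable_toReal h1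
  simpa only [ENNReal.toReal_ofReal (mul_nonneg (pow_pos hz _).le (partitionFn_nonneg _ _ _ _))]
    using this

lemma Good.grand_eq (h : Good H a n) {z : ℝ} (hz : 0 < z) (L : ℝ) :
    grand (phi H a) 1 z L = (Xi H a (Real.log z) L).toReal := by
  simp only [Xi, conf, h.term_eq hz]
  rw [ENNReal.tsum_toReal_eq fun _ => ENNReal.ofReal_ne_top]
  simp only [ENNReal.toReal_ofReal (mul_nonneg (pow_pos hz _).le (partitionFn_nonneg _ _ _ _))]
  rfl

theorem main : ∃ φ : ℝ → ℝ, Measurable φ ∧ (∃ M : ℝ, ∀ r, |φ r| ≤ M) ∧ IsStable φ ∧ IsTempered φ ∧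
    ∃ β : ℝ, 0 < β ∧
      (∀ (L : ℝ) (N : ℕ), IntegrableOn (boltz φ β) (Set.univ.pi fun _ : Fin N => box L)) ∧
      (∀ z L : ℝ, 0 < z → Summable fun N : ℕ => z ^ N * partitionFn φ β L N) ∧
      ∃ P : ℝ → ℝ, (∀ z, 0 < z →
        Tendsto (fun L : ℝ => Real.log (grand φ β z L) / L ^ 3) atTop (𝓝 (P z))) ∧
        ∃ z, 0 < z ∧ ¬ DifferentiableAt ℝ P z := by
  obtain ⟨H, a, n, μ, hg, hd⟩ := exists_kink
  refine ⟨phi H a, hg.measurable_phi, ⟨H + n, fun r => ?_⟩, ⟨H / 2, fun N x _ => hg.energy_ge x⟩,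
    ⟨1, 1, 3, one_pos, one_pos, by norm_num, fun r hr => ?_⟩, 1, one_pos, hg.integrable_boltz,
    fun z L hz => hg.summable_grand hz L, fun z => press H a (Real.log z), fun z hz => ?_,
    Real.exp μ, Real.exp_pos μ, fun h => hd ?_⟩
  · have h1 := hg.Psi_nonneg r
    have h2 := hg.Psi_le r
    have h3 := hg.H_nonneg
    unfold phi
    rw [abs_le]; constructor <;> split_ifs <;> linarith
  · rw [phi_far hr]
    have h1 := hg.Psi_nonneg r
    have h2 : 0 ≤ r ^ (-3 - 1 : ℝ) := Real.rpow_nonneg (by linarith) _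
    linarith
  · simp only [hg.grand_eq hz]
    exact hg.tendsto_press _
  · simpa [Function.comp_def] using h.comp μ Real.differentiableAt_exp

end Vale.Agent.P171
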