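import Mathlib

/-! Sums over finite configurations. -/

namespace Vale.Agent.P171

open Finset

variable {α : Type*}

/-- The sum of `g` over the points of `X`. -/
def S1 (X : Multiset α) (g : α → ℝ) : ℝ := (X.map g).sum

/-- The sum of `g` over ordered pairs of points of `X`, diagonal included. -/
def S2 (X : Multiset α) (g : α → α → ℝ) : ℝ := S1 X fun x => S1 X (g x)

@[simp] lemma S1_zero (g : α → ℝ) : S1 0 g = 0 := rfl

@[simp] lemma S1_cons (x : α) (X : Multiset α) (g : α → ℝ) : S1 (x ::ₘ X) g = g x + S1 X g := by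
  simp [S1]

lemma S1_mono {X : Multiset α} {g h : α → ℝ} (H : ∀ x ∈ X, g x ≤ h x) : S1 X g ≤ S1 X h :=
  Multiset.sum_map_le_sum_map _ _ H

lemma S1_congr {X : Multiset α} {g h : α → ℝ} (H : ∀ x ∈ X, g x = h x) : S1 X g = S1 X h := by
  unfold S1; rw [Multiset.map_congr rfl H]

lemma S1_add (X : Multiset α) (g h : α → ℝ) : S1 X (fun x => g x + h x) = S1 X g + S1 X h :=
  Multiset.sum_map_add

lemma S1_sub (X : Multiset α) (g h : α → ℝ) : S1 X (fun x => g x - h x) = S1 X g - S1 X h :=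
  Multiset.sum_map_sub

lemma S1_mul (X : Multiset α) (c : ℝ) (g : α → ℝ) : S1 X (fun x => c * g x) = c * S1 X g :=
  Multiset.sum_map_mul_left

lemma S1_const (X : Multiset α) (c : ℝ) : S1 X (fun _ => c) = X.card * c := by simp [S1]

lemma S1_nonneg {X : Multiset α} {g : α → ℝ} (H : ∀ x ∈ X, 0 ≤ g x) : 0 ≤ S1 X g := by
  simpa [S1_const] using S1_mono (g := fun _ => 0) H

lemma le_S1 {X : Multiset α} {g : α → ℝ} (H : ∀ x ∈ X, 0 ≤ g x) {x : α} (hx : x ∈ X) :
    g x ≤ S1 X g := by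
  obtain ⟨Y, rfl⟩ := Multiset.exists_cons_of_mem hx
  have := S1_nonneg (X := Y) fun y hy => H y (Multiset.mem_cons_of_mem hy)
  rw [S1_cons]; linarith

lemma S1_sum {ι : Type*} (X : Multiset α) (s : Finset ι) (g : ι → α → ℝ) :
    S1 X (fun x => ∑ i ∈ s, g i x) = ∑ i ∈ s, S1 X (g i) := by
  induction X using Multiset.induction_on with
  | empty => simp
  | cons x X ih => simp [ih, sum_add_distrib]

lemma S1_filter (X : Multiset α) (p : α → Prop) [DecidablePred p] (g : α → ℝ) :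
    S1 (X.filter p) g = S1 X fun x => if p x then g x else 0 := by
  induction X using Multiset.induction_on with
  | empty => simp
  | cons x X ih => by_cases h : p x <;> simp [h, ih]

lemma S1_map {β : Type*} (X : Multiset α) (t : α → β) (g : β → ℝ) :
    S1 (X.map t) g = S1 X fun x => g (t x) := by simp [S1]

lemma hasSum_S1 {X : Multiset α} {g : ℕ → α → ℝ} {G : α → ℝ} (h : ∀ x, HasSum (g · x) (G x)) :
    HasSum (fun k => S1 X (g k)) (S1 X G) := by
  induction X using Multiset.induction_on with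
  | empty => simp
  | cons x X ih => simpa using (h x).add ih

lemma S1_univ {N : ℕ} (x : Fin N → α) (g : α → ℝ) : S1 (univ.val.map x) g = ∑ i, g (x i) := by
  rw [S1_map]; rfl

lemma S2_mono {X : Multiset α} {g h : α → α → ℝ} (H : ∀ x ∈ X, ∀ y ∈ X, g x y ≤ h x y) :
    S2 X g ≤ S2 X h := S1_mono fun x hx => S1_mono (H x hx)

lemma S2_congr {X : Multiset α} {g h : α → α → ℝ} (H : ∀ x ∈ X, ∀ y ∈ X, g x y = h x y) :
    S2 X g = S2 X h := S1_congr fun x hx => S1_congr (H x hx)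

lemma S2_add (X : Multiset α) (g h : α → α → ℝ) :
    S2 X (fun x y => g x y + h x y) = S2 X g + S2 X h := by simp only [S2, S1_add]

lemma S2_sub (X : Multiset α) (g h : α → α → ℝ) :
    S2 X (fun x y => g x y - h x y) = S2 X g - S2 X h := by simp only [S2, S1_sub]

lemma S2_mul (X : Multiset α) (c : ℝ) (g : α → α → ℝ) :
    S2 X (fun x y => c * g x y) = c * S2 X g := by simp only [S2, S1_mul]

lemma S2_const (X : Multiset α) (c : ℝ) : S2 X (fun _ _ => c) = X.card ^ 2 * c := by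
  simp only [S2, S1_const]; ring

lemma S2_nonneg {X : Multiset α} {g : α → α → ℝ} (H : ∀ x ∈ X, ∀ y ∈ X, 0 ≤ g x y) :
    0 ≤ S2 X g := S1_nonneg fun x hx => S1_nonneg (H x hx)

lemma S2_sum {ι : Type*} (X : Multiset α) (s : Finset ι) (g : ι → α → α → ℝ) :
    S2 X (fun x y => ∑ i ∈ s, g i x y) = ∑ i ∈ s, S2 X (g i) := by simp only [S2, S1_sum]

lemma hasSum_S2 {X : Multiset α} {g : ℕ → α → α → ℝ} {G : α → α → ℝ}
    (h : ∀ x y, HasSum (g · x y) (G x y)) : HasSum (fun k => S2 X (g k)) (S2 X G) :=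
  hasSum_S1 (g := fun k x => S1 X (g k x)) fun x => hasSum_S1 (h x)

lemma S2_filter (X : Multiset α) (p : α → Prop) [DecidablePred p] (g : α → α → ℝ) :
    S2 (X.filter p) g = S2 X fun x y => if p x ∧ p y then g x y else 0 := by
  simp only [S2, S1_filter]
  refine S1_congr fun x _ => ?_
  by_cases h : p x <;> simp [h, S1_const]

lemma S2_map {β : Type*} (X : Multiset α) (t : α → β) (g : β → β → ℝ) :
    S2 (X.map t) g = S2 X fun x y => g (t x) (t y) := by simp only [S2, S1_map]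

open Classical in
lemma S1_decomp {ι : Type*} (B : Finset ι) (Λ : ι → Set α)
    (hd : Pairwise fun i j => Disjoint (Λ i) (Λ j)) {X : Multiset α}
    (hX : ∀ x ∈ X, x ∈ ⋃ b ∈ B, Λ b) (g : α → ℝ) :
    S1 X g = ∑ b ∈ B, S1 (X.filter (· ∈ Λ b)) g := by
  simp only [S1_filter, ← S1_sum]
  refine S1_congr fun x hx => ?_
  obtain ⟨b, hb, hxb⟩ := Set.mem_iUnion₂.mp (hX x hx)
  rw [sum_eq_single b (fun b' _ h => if_neg fun h' => (hd h).le_bot ⟨h', hxb⟩)
    (fun h => absurd hb h), if_pos hxb]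

open Classical in
lemma card_decomp {ι : Type*} (B : Finset ι) (Λ : ι → Set α)
    (hd : Pairwise fun i j => Disjoint (Λ i) (Λ j)) {X : Multiset α}
    (hX : ∀ x ∈ X, x ∈ ⋃ b ∈ B, Λ b) :
    (X.card : ℝ) = ∑ b ∈ B, ((X.filter (· ∈ Λ b)).card : ℝ) := by
  simpa [S1_const] using S1_decomp B Λ hd hX fun _ => 1

open Classical in
lemma S2_decomp {ι : Type*} (B : Finset ι) (Λ : ι → Set α)
    (hd : Pairwise fun i j => Disjoint (Λ i) (Λ j)) (X : Multiset α) (g : α → α → ℝ) :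
    S2 X g = ∑ b ∈ B, S2 (X.filter (· ∈ Λ b)) g +
      S2 X fun x y => if ∃ b ∈ B, x ∈ Λ b ∧ y ∈ Λ b then 0 else g x y := by
  simp only [S2_filter, ← S2_sum, ← S2_add]
  refine S2_congr fun x _ y _ => ?_
  by_cases h : ∃ b ∈ B, x ∈ Λ b ∧ y ∈ Λ b
  · rw [if_pos h]
    obtain ⟨b, hb, hxb⟩ := h
    rw [sum_eq_single b (fun b' _ h => if_neg fun h' => (hd h).le_bot ⟨h'.1, hxb.1⟩)
      (fun h => absurd hb h), if_pos hxb, add_zero]
  · rw [if_neg h, sum_eq_zero fun b hb => if_neg fun h' => h ⟨b, hb, h'⟩, zero_add]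

/-- A Schur test for pair counts. -/
theorem schur {γ : Type*} [DecidableEq γ] (X : Multiset α) (c : α → γ) (r : γ → γ → Prop)
    [∀ u v, Decidable (r u v)] (hr : ∀ u v, r u v → r v u) (D : ℕ)
    (hD : ∀ u, ∃ T : Finset γ, T.card ≤ D ∧ ∀ v, r u v → v ∈ T) :
    S2 X (fun x y => if r (c x) (c y) then 1 else 0) ≤
      D * S2 X fun x y => if c x = c y then 1 else 0 := by
  obtain ⟨T, hT⟩ : ∃ T : Finset γ, ∀ x ∈ X, c x ∈ T :=
    ⟨(X.map c).toFinset, fun x hx => Multiset.mem_toFinset.mpr (Multiset.mem_map_of_mem c hx)⟩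
  obtain ⟨n, hn⟩ : ∃ n : γ → ℝ, n = fun u => S1 X fun x => if c x = u then 1 else 0 := ⟨_, rfl⟩
  have h1 : ∀ G : γ → ℝ, S1 X (fun x => G (c x)) = ∑ u ∈ T, G u * n u := by
    intro G
    simp only [hn, ← S1_mul, ← S1_sum]
    refine S1_congr fun x hx => ?_
    simp [hT x hx]
  have h2 : ∀ g : γ → γ → ℝ, S2 X (fun x y => g (c x) (c y)) =
      ∑ u ∈ T, (∑ v ∈ T, g u v * n v) * n u := by
    intro g
    unfold S2
    simp only [h1]
    exact h1 fun u => ∑ v ∈ T, g u v * n v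
  rw [h2 fun u v => if r u v then 1 else 0, h2 fun u v => if u = v then 1 else 0]
  have h3 : ∀ u, ∑ v ∈ T, (if r u v then (1 : ℝ) else 0) ≤ D := by
    intro u
    obtain ⟨T', hT', h⟩ := hD u
    rw [sum_boole]
    exact_mod_cast (card_le_card fun v hv => h v (mem_filter.mp hv).2).trans hT'
  have h4 : ∑ u ∈ T, ∑ v ∈ T, (if r u v then (1 : ℝ) else 0) * n u ^ 2 ≤ D * ∑ u ∈ T, n u ^ 2 := by
    rw [mul_sum]
    refine sum_le_sum fun u _ => ?_
    rw [← sum_mul]
    exact mul_le_mul_of_nonneg_right (h3 u) (sq_nonneg _)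
  have h5 : ∑ u ∈ T, ∑ v ∈ T, (if r u v then (1 : ℝ) else 0) * n v ^ 2 =
      ∑ u ∈ T, ∑ v ∈ T, (if r u v then (1 : ℝ) else 0) * n u ^ 2 := by
    rw [sum_comm]
    refine sum_congr rfl fun u _ => sum_congr rfl fun v _ => ?_
    rw [if_congr ⟨hr _ _, hr _ _⟩ rfl rfl]
  have h6 : ∑ u ∈ T, (∑ v ∈ T, (if u = v then (1 : ℝ) else 0) * n v) * n u = ∑ u ∈ T, n u ^ 2 := by
    refine sum_congr rfl fun u hu => ?_
    simp [hu, sq]
  rw [h6]
  have h7 : 2 * ∑ u ∈ T, (∑ v ∈ T, (if r u v then (1 : ℝ) else 0) * n v) * n u ≤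
      ∑ u ∈ T, ∑ v ∈ T, (if r u v then (1 : ℝ) else 0) * n u ^ 2 +
      ∑ u ∈ T, ∑ v ∈ T, (if r u v then (1 : ℝ) else 0) * n v ^ 2 := by
    simp only [← sum_add_distrib, mul_sum, sum_mul]
    refine sum_le_sum fun u _ => sum_le_sum fun v _ => ?_
    split_ifs <;> nlinarith [sq_nonneg (n u - n v)]
  linarith

lemma shift_count_aux (u v : ℤ) (S : ℕ) (huv : u ≤ v) :
    (((range S).filter fun s : ℕ => (u + s) / S ≠ (v + s) / S).card : ℤ) ≤ v - u := by
  have : ((range S).filter fun s : ℕ => (u + s) / S ≠ (v + s) / S).card ≤ (Ioc u v).card := by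
    refine card_le_card_of_injOn (fun s : ℕ => S * ((v + s) / S) - s) (fun s hs => ?_)
      fun s hs s' hs' h => ?_
    · simp only [coe_filter, mem_range, Set.mem_ofPred_eq] at hs
      have hS : (0 : ℤ) < S := by exact_mod_cast (Nat.zero_le s).trans_lt hs.1
      have h1 : (u + s) / S < (v + s) / S :=
        lt_of_le_of_ne (Int.ediv_le_ediv hS (by omega)) hs.2
      have h2 := (Int.ediv_lt_iff_lt_mul hS).mp h1
      have h3 := Int.mul_ediv_self_le (x := v + s) hS.ne'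
      simp only [coe_Ioc, Set.mem_Ioc]
      constructor <;> nlinarith
    · simp only [coe_filter, mem_range, Set.mem_ofPred_eq] at hs hs'
      have h1 : (S : ℤ) ∣ (s : ℤ) - s' := ⟨(v + s) / S - (v + s') / S, by
        simp only at h; rw [mul_sub]; linarith⟩
      have h2 := Int.eq_zero_of_dvd_of_natAbs_lt_natAbs h1 (by omega)
      omega
  rw [Int.card_Ioc] at this
  omega

lemma shift_count (u v : ℤ) (S D : ℕ) (h : |u - v| ≤ D) :
    ((range S).filter fun s : ℕ => (u + s) / S ≠ (v + s) / S).card ≤ D := by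
  rcases le_total u v with huv | huv
  · have := shift_count_aux u v S huv
    have := abs_le.mp h
    omega
  · have h1 := shift_count_aux v u S huv
    have := abs_le.mp h
    simp only [ne_comm (a := (v + _) / (S : ℤ))] at h1
    omega

end Vale.Agent.P171
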