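import Vale.Agent.P171.Defs
import Vale.Agent.P171.Conf
import Vale.Agent.P171.Sums

/-! The family of potentials and its energy estimates. -/

namespace Vale.Agent.P171

open MeasureTheory Finset
open scoped ENNReal

/-- The attractive step potential at scale `k + 1`. -/
noncomputable def psi (k : ℕ) (r : ℝ) : ℝ := if r ≤ 10 * (k + 1) then (((k : ℝ) + 1) ^ 3)⁻¹ else 0

/-- A superposition of the step potentials. -/
noncomputable def Psi (a : ℕ → ℝ) (r : ℝ) : ℝ := ∑' k, a k * psi k r

/-- The pair potential: a repulsive core minus the attraction. -/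
noncomputable def phi (H : ℝ) (a : ℕ → ℝ) (r : ℝ) : ℝ := (if r ≤ 2 then H else 0) - Psi a r

/-- The energy of a configuration. -/
noncomputable def U (H : ℝ) (a : ℕ → ℝ) (X : Multiset Space) : ℝ :=
  (S2 X (fun x y => phi H a (dist x y)) - X.card * phi H a 0) / 2

/-- The unit cell of a point. -/
noncomputable def cell (x : Space) : Fin 3 → ℤ := fun i => ⌊x i⌋

/-- The sum of the squares of the cell occupation numbers. -/
noncomputable def Q (X : Multiset Space) : ℝ := S2 X fun x y => if cell x = cell y then 1 else 0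

/-- Admissible coefficient sequences. -/
structure Adm (a : ℕ → ℝ) (n : ℝ) : Prop where
  nonneg : ∀ k, 0 ≤ a k
  hasSum : HasSum a n

lemma psi_nonneg (k : ℕ) (r : ℝ) : 0 ≤ psi k r := by
  unfold psi; split_ifs <;> positivity

lemma psi_le_one (k : ℕ) (r : ℝ) : psi k r ≤ 1 := by
  unfold psi; split_ifs
  · exact inv_le_one_of_one_le₀ (one_le_pow₀ (by simp))
  · exact zero_le_one

variable {a : ℕ → ℝ} {n H : ℝ}

lemma Adm.n_nonneg (h : Adm a n) : 0 ≤ n := h.hasSum.nonneg h.nonneg

lemma Adm.hasSum_Psi (h : Adm a n) (r : ℝ) : HasSum (fun k => a k * psi k r) (Psi a r) :=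
  (Summable.of_nonneg_of_le (fun k => mul_nonneg (h.nonneg k) (psi_nonneg k r))
    (fun k => mul_le_of_le_one_right (h.nonneg k) (psi_le_one k r)) h.hasSum.summable).hasSum

lemma Adm.Psi_nonneg (h : Adm a n) (r : ℝ) : 0 ≤ Psi a r :=
  (h.hasSum_Psi r).nonneg fun k => mul_nonneg (h.nonneg k) (psi_nonneg k r)

lemma Adm.Psi_le (h : Adm a n) (r : ℝ) : Psi a r ≤ n :=
  hasSum_le (fun k => mul_le_of_le_one_right (h.nonneg k) (psi_le_one k r)) (h.hasSum_Psi r)
    h.hasSum

lemma measurable_psi (k : ℕ) : Measurable (psi k) :=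
  Measurable.ite measurableSet_Iic measurable_const measurable_const

lemma Adm.measurable_phi (h : Adm a n) : Measurable (phi H a) := by
  refine (Measurable.ite measurableSet_Iic measurable_const measurable_const).sub ?_
  refine measurable_of_tendsto_metrizable (f := fun m r => ∑ k ∈ range m, a k * psi k r)
    (fun m => Finset.measurable_sum _ fun k _ => (measurable_psi k).const_mul _) ?_
  exact tendsto_pi_nhds.mpr fun r => (h.hasSum_Psi r).tendsto_sum_nat

lemma coord_le_dist (x y : Space) (i : Fin 3) : |x i - y i| ≤ dist x y := by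
  rw [← Real.dist_eq]; exact PiLp.dist_apply_le x y i

lemma dist_le_of_coord {x y : Space} {m : ℝ} (h : ∀ i, |x i - y i| ≤ m) : dist x y ≤ 2 * m := by
  have hm : 0 ≤ m := (abs_nonneg _).trans (h 0)
  rw [EuclideanSpace.dist_eq]
  refine Real.sqrt_le_iff.mpr ⟨by positivity, ?_⟩
  have : ∀ i, dist (x i) (y i) ^ 2 ≤ m ^ 2 := fun i => by
    rw [Real.dist_eq]; exact pow_le_pow_left₀ (abs_nonneg _) (h i) 2
  rw [Fin.sum_univ_three]
  nlinarith [this 0, this 1, this 2]

lemma dist_le_of_cell {x y : Space} (h : cell x = cell y) : dist x y ≤ 2 := by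
  have := dist_le_of_coord (x := x) (y := y) (m := 1) fun i =>
    (Int.abs_sub_lt_one_of_floor_eq_floor (congrFun h i)).le
  linarith

lemma cell_near {x y : Space} {D : ℕ} (h : dist x y ≤ D) (i : Fin 3) :
    |cell x i - cell y i| ≤ (D + 1 : ℕ) := by
  have h1 := abs_le.mp ((coord_le_dist x y i).trans h)
  have h2 := Int.floor_le (x i)
  have h3 := Int.floor_le (y i)
  have h4 := Int.lt_floor_add_one (x i)
  have h5 := Int.lt_floor_add_one (y i)
  have h6 : ((|cell x i - cell y i| : ℤ) : ℝ) ≤ (((D + 1 : ℕ) : ℤ) : ℝ) := by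
    unfold cell; push_cast
    rw [abs_le]; constructor <;> linarith
  exact_mod_cast h6

lemma near_count (D : ℕ) (u : Fin 3 → ℤ) :
    ∃ T : Finset (Fin 3 → ℤ), T.card ≤ (2 * D + 1) ^ 3 ∧ ∀ v, (∀ i, |u i - v i| ≤ D) → v ∈ T := by
  refine ⟨Fintype.piFinset fun i => Icc (u i - D) (u i + D), ?_, fun v hv => ?_⟩
  · rw [Fintype.card_piFinset]
    have : ∀ i, (Icc (u i - D) (u i + D)).card = 2 * D + 1 := fun i => by
      rw [Int.card_Icc]; omega
    simp [this]
  · rw [Fintype.mem_piFinset]
    intro i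
    have := abs_le.mp (hv i)
    rw [mem_Icc]; omega

lemma schur_near (X : Multiset Space) (c : Space → Fin 3 → ℤ) (D : ℕ) :
    S2 X (fun x y => if ∀ i, |c x i - c y i| ≤ D then 1 else 0) ≤
      ((2 * D + 1) ^ 3 : ℕ) * S2 X fun x y => if c x = c y then 1 else 0 :=
  schur X c (fun u v => ∀ i, |u i - v i| ≤ D) (fun _ _ h i => by rw [abs_sub_comm]; exact h i) _
    (near_count D)

lemma Q_nonneg (X : Multiset Space) : 0 ≤ Q X :=
  S2_nonneg fun _ _ _ _ => by split_ifs <;> simp

lemma card_le_Q (X : Multiset Space) : (X.card : ℝ) ≤ Q X := by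
  have := S1_mono (X := X) (g := fun _ => 1)
    (h := fun x => S1 X fun y => if cell x = cell y then 1 else 0) fun x hx => by
      simpa using le_S1 (g := fun y => if cell x = cell y then (1 : ℝ) else 0)
        (fun _ _ => by split_ifs <;> simp) hx
  rw [S1_const, mul_one] at this
  exact this

lemma S2_psi_le (k : ℕ) (X : Multiset Space) :
    S2 X (fun x y => psi k (dist x y)) ≤ 23 ^ 3 * Q X := by
  have h1 : S2 X (fun x y => psi k (dist x y)) ≤ (((k : ℝ) + 1) ^ 3)⁻¹ *
      S2 X (fun x y => if ∀ i, |cell x i - cell y i| ≤ (10 * (k + 1) + 1 : ℕ) then 1 else 0) := by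
    rw [← S2_mul]
    refine S2_mono fun x _ y _ => ?_
    unfold psi
    split_ifs with h h'
    · simp
    · exact absurd (cell_near (by exact_mod_cast h)) h'
    · positivity
    · simp
  have h2 := schur_near X cell (10 * (k + 1) + 1)
  refine h1.trans ((mul_le_mul_of_nonneg_left h2 (by positivity)).trans ?_)
  rw [← mul_assoc]
  refine mul_le_mul_of_nonneg_right ?_ (Q_nonneg X)
  rw [inv_mul_le_iff₀ (by positivity), ← mul_pow]
  push_cast
  gcongr
  nlinarith [Nat.cast_nonneg (α := ℝ) k]

lemma Adm.S2_Psi_le (h : Adm a n) (X : Multiset Space) :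
    S2 X (fun x y => Psi a (dist x y)) ≤ 23 ^ 3 * n * Q X := by
  have h1 := hasSum_S2 (X := X) fun x y => h.hasSum_Psi (dist x y)
  have h2 := h.hasSum.mul_right (23 ^ 3 * Q X)
  refine (hasSum_le (fun k => ?_) h1 h2).trans (le_of_eq (by ring))
  rw [S2_mul]
  exact mul_le_mul_of_nonneg_left (S2_psi_le k X) (h.nonneg k)

lemma Adm.U_ge (h : Adm a n) (hH : 0 ≤ H) (X : Multiset Space) :
    (H - 23 ^ 3 * n) / 2 * Q X - H / 2 * X.card ≤ U H a X := by
  have h1 : H * Q X ≤ S2 X fun x y => if dist x y ≤ 2 then H else 0 := by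
    rw [Q, ← S2_mul]
    refine S2_mono fun x _ y _ => ?_
    split_ifs with h h'
    · simp
    · exact absurd (dist_le_of_cell h) h'
    · simpa using hH
    · simp
  have h2 := h.S2_Psi_le X
  have h3 : phi H a 0 ≤ H := by
    have := h.Psi_nonneg 0
    unfold phi; rw [if_pos (by norm_num)]; linarith
  have h4 := mul_le_mul_of_nonneg_left h3 (Nat.cast_nonneg (α := ℝ) X.card)
  have h5 : S2 X (fun x y => phi H a (dist x y)) = (S2 X fun x y => if dist x y ≤ 2 then H else 0) -
      S2 X fun x y => Psi a (dist x y) := S2_sub _ _ _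
  unfold U
  rw [h5]
  nlinarith

lemma meas_S2 {g : Space → Space → ℝ} (hg : Measurable fun p : Space × Space => g p.1 p.2) :
    Meas fun X : Multiset Space => S2 X g := by
  intro Ω _ l hl
  simp only [S2_map]
  have key : ∀ (m : Multiset (Ω → Space)) (G : (Ω → Space) → Ω → ℝ),
      (∀ f ∈ m, Measurable (G f)) → Measurable fun ω => S1 m fun f => G f ω := by
    intro m G
    induction m using Multiset.induction_on with
    | empty => intro _; simp
    | cons f m ih =>
      intro h
      simp only [S1_cons]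
      exact (h f (Multiset.mem_cons_self _ _)).add (ih fun f' hf => h f' (Multiset.mem_cons_of_mem hf))
  exact key l _ fun f hf => key l _ fun f' hf' => hg.comp ((hl f hf).prodMk (hl f' hf'))

lemma measurable_cell : Measurable cell :=
  measurable_pi_lambda _ fun i => Int.measurable_floor.comp (by fun_prop)

lemma Adm.meas_U (h : Adm a n) : Meas (U H a) := by
  intro Ω _ l hl
  have h1 := meas_S2 (g := fun x y => phi H a (dist x y)) (h.measurable_phi.comp measurable_dist)
    Ω l hl
  unfold U
  simp only [Multiset.card_map]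
  exact (h1.sub measurable_const).div_const _

lemma U_map_sub (v : Space) (X : Multiset Space) : U H a (X.map fun x => x - v) = U H a X := by
  simp [U, S2_map]

open Classical in
lemma U_decomp {ι : Type*} (B : Finset ι) (Λ : ι → Set Space)
    (hd : Pairwise fun i j => Disjoint (Λ i) (Λ j)) {X : Multiset Space}
    (hX : ∀ x ∈ X, x ∈ ⋃ b ∈ B, Λ b) :
    U H a X = ∑ b ∈ B, U H a (X.filter (· ∈ Λ b)) +
      (S2 X fun x y => if ∃ b ∈ B, x ∈ Λ b ∧ y ∈ Λ b then 0 else phi H a (dist x y)) / 2 := by
  unfold U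
  rw [S2_decomp B Λ hd, card_decomp B Λ hd hX, ← sum_div, sum_sub_distrib, sum_mul]
  ring

lemma U_univ {N : ℕ} (x : Fin N → Space) : U H a (univ.val.map x) = energy (phi H a) x := by
  unfold U energy S2
  simp only [S1_univ]
  have h1 : ∀ i j : Fin N, phi H a (dist (x i) (x j)) =
      (if i < j then phi H a (dist (x i) (x j)) else 0) +
      (if j < i then phi H a (dist (x j) (x i)) else 0) + if i = j then phi H a 0 else 0 := by
    intro i j
    rcases lt_trichotomy i j with h | h | h
    · simp [h, h.ne, h.not_gt]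
    · simp [h]
    · simp [h, h.ne', h.not_gt, dist_comm]
  rw [sum_congr rfl fun i _ => sum_congr rfl fun j _ => h1 i j]
  simp only [sum_add_distrib]
  rw [sum_comm (f := fun i j => if j < i then phi H a (dist (x j) (x i)) else 0)]
  simp

end Vale.Agent.P171
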