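import Vale.Agent.P171.Pot

/-! The pressure: existence of the limit and a lower bound. -/

namespace Vale.Agent.P171

open MeasureTheory Finset Filter
open scoped ENNReal Topology

/-- The grand canonical weight of a configuration. -/
noncomputable def wt (H : ℝ) (a : ℕ → ℝ) (μ : ℝ) (X : Multiset Space) : ℝ≥0∞ :=
  ENNReal.ofReal (Real.exp (μ * X.card - U H a X))

/-- The grand partition function of the cube. -/
noncomputable def Xi (H : ℝ) (a : ℕ → ℝ) (μ L : ℝ) : ℝ≥0∞ :=
  conf (volume.restrict (box L)) (wt H a μ)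

/-- A translated cube. -/
def tbox (v : Fin 3 → ℝ) (L : ℝ) : Set Space := (fun x => x - WithLp.toLp 2 v) ⁻¹' box L

lemma mem_tbox {v : Fin 3 → ℝ} {L : ℝ} {x : Space} :
    x ∈ tbox v L ↔ ∀ i, 0 ≤ x i - v i ∧ x i - v i ≤ L := Iff.rfl

lemma measurableSet_box (L : ℝ) : MeasurableSet (box L) := by
  have : box L = ⋂ i, (fun x : Space => x i) ⁻¹' Set.Icc 0 L := by ext x; simp [box]
  rw [this]
  exact MeasurableSet.iInter fun i => measurableSet_Icc.preimage (by fun_prop)

lemma measurableSet_tbox (v : Fin 3 → ℝ) (L : ℝ) : MeasurableSet (tbox v L) :=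
  (measurableSet_box L).preimage (by fun_prop)

lemma volume_box {L : ℝ} (hL : 0 ≤ L) : volume (box L) = ENNReal.ofReal (L ^ 3) := by
  have h := (PiLp.volume_preserving_ofLp (Fin 3)).measure_preimage
    (s := Set.Icc (fun _ => (0 : ℝ)) (fun _ => L)) measurableSet_Icc.nullMeasurableSet
  have h2 : box L = WithLp.ofLp ⁻¹' Set.Icc (fun _ : Fin 3 => (0 : ℝ)) (fun _ => L) := by
    ext x; simp [box, Pi.le_def, forall_and]
  rw [h2, h, Real.volume_Icc_pi]
  simp [ENNReal.ofReal_pow hL]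

lemma box_mono {L L' : ℝ} (h : L ≤ L') : box L ⊆ box L' := fun _ hx i =>
  ⟨(hx i).1, (hx i).2.trans h⟩

lemma volume_tbox (v : Fin 3 → ℝ) (L : ℝ) : volume (tbox v L) = volume (box L) :=
  (measurePreserving_sub_right volume _).measure_preimage (measurableSet_box L).nullMeasurableSet

variable {a : ℕ → ℝ} {n H : ℝ}

lemma conf_tbox (μ : ℝ) (v : Fin 3 → ℝ) (L : ℝ) :
    conf (volume.restrict (tbox v L)) (wt H a μ) = Xi H a μ L := by
  rw [Xi, ← conf_map (measurePreserving_sub_right volume (WithLp.toLp 2 v))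
    (measurableEmbedding_subRight _) (box L)]
  congr 1
  funext X
  simp [wt, U_map_sub]

lemma conf_tbox_exp (c : ℝ) (v : Fin 3 → ℝ) {L : ℝ} (hL : 0 ≤ L) :
    conf (volume.restrict (tbox v L)) (fun X => ENNReal.ofReal (Real.exp (c * X.card))) =
      ENNReal.ofReal (Real.exp (Real.exp c * L ^ 3)) :=
  conf_exp _ (by positivity) (by rw [Measure.restrict_apply_univ, volume_tbox, volume_box hL])

lemma Adm.meas_wt (h : Adm a n) (μ : ℝ) : Meas (wt H a μ) := by
  intro Ω _ l hl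
  unfold wt
  simp only [Multiset.card_map]
  exact (measurable_const.sub (h.meas_U Ω l hl)).exp.ennreal_ofReal

lemma one_le_Xi (μ L : ℝ) : 1 ≤ Xi H a μ L := by
  simpa [wt, U, S2, Xi] using le_conf (volume.restrict (box L)) (wt H a μ)

/-- Admissible coefficients dominated by the core. -/
structure Good (H : ℝ) (a : ℕ → ℝ) (n : ℝ) : Prop extends Adm a n where
  big : 23 ^ 3 * n + 2 ≤ H

lemma Good.H_nonneg (h : Good H a n) : 0 ≤ H := by
  have := h.n_nonneg; have := h.big; linarith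

lemma Good.U_ge' (h : Good H a n) (X : Multiset Space) : Q X - H / 2 * X.card ≤ U H a X := by
  have h1 := h.U_ge h.H_nonneg X
  have h2 := mul_le_mul_of_nonneg_right h.big (Q_nonneg X)
  nlinarith

lemma Xi_le_of {μ c L : ℝ} (hL : 0 ≤ L) (h : ∀ X, μ * X.card - U H a X ≤ c * X.card) :
    Xi H a μ L ≤ ENNReal.ofReal (Real.exp (Real.exp c * L ^ 3)) := by
  rw [← conf_exp (volume.restrict (box L)) (by positivity)
    (by rw [Measure.restrict_apply_univ, volume_box hL])]
  exact conf_mono (measurableSet_box L) fun X _ =>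
    ENNReal.ofReal_le_ofReal (Real.exp_le_exp.mpr (h X))

lemma Good.Xi_le (h : Good H a n) (μ : ℝ) {L : ℝ} (hL : 0 ≤ L) :
    Xi H a μ L ≤ ENNReal.ofReal (Real.exp (Real.exp (μ + H / 2) * L ^ 3)) :=
  Xi_le_of hL fun X => by have := h.U_ge' X; have := Q_nonneg X; linarith

lemma Xi_mono (μ : ℝ) {L L' : ℝ} (h : L ≤ L') : Xi H a μ L ≤ Xi H a μ L' :=
  conf_mono_set (box_mono h) _

/-- The logarithm of the grand partition function. -/
noncomputable def lg (H : ℝ) (a : ℕ → ℝ) (μ L : ℝ) : ℝ := Real.log (Xi H a μ L).toReal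

lemma Good.Xi_ne_top (h : Good H a n) (μ L : ℝ) : Xi H a μ L ≠ ∞ :=
  ne_top_of_le_ne_top ENNReal.ofReal_ne_top
    ((Xi_mono μ (le_max_left L 0)).trans (h.Xi_le μ (le_max_right L 0)))

lemma Good.Xi_eq (h : Good H a n) (μ L : ℝ) :
    Xi H a μ L = ENNReal.ofReal (Real.exp (lg H a μ L)) := by
  have h1 : 0 < (Xi H a μ L).toReal :=
    ENNReal.toReal_pos (zero_lt_one.trans_le (one_le_Xi μ L)).ne' (h.Xi_ne_top μ L)
  rw [lg, Real.exp_log h1, ENNReal.ofReal_toReal (h.Xi_ne_top μ L)]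

lemma Good.lg_le_iff (h : Good H a n) {μ L c : ℝ} :
    lg H a μ L ≤ c ↔ Xi H a μ L ≤ ENNReal.ofReal (Real.exp c) := by
  rw [h.Xi_eq, ENNReal.ofReal_le_ofReal_iff (Real.exp_pos _).le, Real.exp_le_exp]

lemma Good.le_lg_iff (h : Good H a n) {μ L c : ℝ} :
    c ≤ lg H a μ L ↔ ENNReal.ofReal (Real.exp c) ≤ Xi H a μ L := by
  rw [h.Xi_eq, ENNReal.ofReal_le_ofReal_iff (Real.exp_pos _).le, Real.exp_le_exp]

lemma Good.lg_nonneg (h : Good H a n) (μ L : ℝ) : 0 ≤ lg H a μ L :=
  h.le_lg_iff.mpr (by simpa using one_le_Xi μ L)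

lemma Good.lg_mono (h : Good H a n) (μ : ℝ) {L L' : ℝ} (hL : L ≤ L') :
    lg H a μ L ≤ lg H a μ L' := h.lg_le_iff.mpr ((Xi_mono μ hL).trans (h.Xi_eq μ L').le)

/-- The pressure. -/
noncomputable def press (H : ℝ) (a : ℕ → ℝ) (μ : ℝ) : ℝ := ⨆ S : ℕ, lg H a μ S / ((S : ℝ) + 3) ^ 3

lemma Good.lg_le_press (h : Good H a n) (μ : ℝ) (S : ℕ) :
    lg H a μ S ≤ ((S : ℝ) + 3) ^ 3 * press H a μ := by
  rw [← div_le_iff₀' (by positivity)]
  refine le_ciSup (f := fun S : ℕ => lg H a μ S / ((S : ℝ) + 3) ^ 3) ⟨Real.exp (μ + H / 2), ?_⟩ S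
  rintro _ ⟨S, rfl⟩
  rw [div_le_iff₀ (by positivity)]
  refine (h.lg_le_iff.mpr (h.Xi_le μ (Nat.cast_nonneg S))).trans ?_
  gcongr; linarith

lemma press_le {μ c : ℝ} (h : ∀ S : ℕ, lg H a μ S ≤ ((S : ℝ) + 3) ^ 3 * c) : press H a μ ≤ c :=
  ciSup_le fun S => by rw [div_le_iff₀' (by positivity)]; exact h S

lemma Good.press_nonneg (h : Good H a n) (μ : ℝ) : 0 ≤ press H a μ := by
  have h1 := (h.lg_nonneg μ (0 : ℕ)).trans (h.lg_le_press μ 0)
  exact nonneg_of_mul_nonneg_right h1 (by positivity)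

/-- The cubes of side `S` of a grid with corridors of width three. -/
def gbox (S : ℕ) (b : Fin 3 → ℕ) : Set Space := tbox (fun i => ((S : ℝ) + 3) * b i) S

lemma gbox_far {S : ℕ} {b b' : Fin 3 → ℕ} (h : b ≠ b') {x y : Space} (hx : x ∈ gbox S b)
    (hy : y ∈ gbox S b') : 3 ≤ dist x y := by
  obtain ⟨i, hi⟩ := Function.ne_iff.mp h
  refine le_trans ?_ (coord_le_dist x y i)
  have h1 := mem_tbox.mp hx i
  have h2 := mem_tbox.mp hy i
  have hS : (0 : ℝ) ≤ S := Nat.cast_nonneg S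
  rcases lt_or_gt_of_ne hi with h | h
  · have : (b i : ℝ) + 1 ≤ b' i := by exact_mod_cast h
    rw [abs_sub_comm]
    exact le_trans (by nlinarith) (le_abs_self _)
  · have : (b' i : ℝ) + 1 ≤ b i := by exact_mod_cast h
    exact le_trans (by nlinarith) (le_abs_self _)

lemma gbox_disjoint (S : ℕ) : Pairwise fun b b' => Disjoint (gbox S b) (gbox S b') := by
  intro b b' h
  rw [Set.disjoint_left]
  intro x hx hx'
  have := gbox_far h hx hx'
  rw [dist_self] at this; linarith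

/-- The index set of an `m × m × m` grid. -/
def grid (m : ℕ) : Finset (Fin 3 → ℕ) := Fintype.piFinset fun _ => range m

lemma card_grid (m : ℕ) : (grid m).card = m ^ 3 := by simp [grid]

lemma gbox_subset {S m : ℕ} {L : ℝ} (h : m * ((S : ℝ) + 3) ≤ L) :
    ⋃ b ∈ grid m, gbox S b ⊆ box L := by
  intro x hx i
  obtain ⟨b, hb, hx⟩ := Set.mem_iUnion₂.mp hx
  have h1 := mem_tbox.mp hx i
  have h2 : (b i : ℝ) + 1 ≤ m := by
    exact_mod_cast mem_range.mp (Fintype.mem_piFinset.mp hb i)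
  have h3 : (0 : ℝ) ≤ b i := Nat.cast_nonneg _
  have hS : (0 : ℝ) ≤ S := Nat.cast_nonneg S
  constructor <;> nlinarith

open Classical in
lemma Xi_ge_prod {S m : ℕ} {L μ : ℝ} (h : m * ((S : ℝ) + 3) ≤ L) {c : ℝ≥0∞} (hc : c ≠ ∞)
    {f : Multiset Space → ℝ≥0∞} (hf : Meas f)
    (hle : ∀ X : Multiset Space, (∀ x ∈ X, x ∈ ⋃ b ∈ grid m, gbox S b) →
      c * ∏ b ∈ grid m, f (X.filter (· ∈ gbox S b)) ≤ wt H a μ X) :
    c * ∏ b ∈ grid m, conf (volume.restrict (gbox S b)) f ≤ Xi H a μ L := by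
  rw [← conf_biUnion (gbox S) (fun b => measurableSet_tbox _ _) (gbox_disjoint S)
    (f := fun _ => f) fun _ => hf, ← conf_const_mul _ hc]
  exact (conf_mono ((grid m).measurableSet_biUnion fun b _ => measurableSet_tbox _ _) hle).trans
    (conf_mono_set (gbox_subset h) _)

lemma phi_far {r : ℝ} (h : 3 ≤ r) : phi H a r = -Psi a r := by
  rw [phi, if_neg (by linarith), zero_sub]

open Classical in
lemma Good.superadd (h : Good H a n) (μ : ℝ) {S m : ℕ} {L : ℝ} (hL : m * ((S : ℝ) + 3) ≤ L) :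
    (m : ℝ) ^ 3 * lg H a μ S ≤ lg H a μ L := by
  rw [h.le_lg_iff]
  have h1 := Xi_ge_prod (H := H) (a := a) (μ := μ) hL ENNReal.one_ne_top (h.meas_wt (H := H) μ) (by
    intro X hX
    unfold wt
    rw [one_mul, ← ENNReal.ofReal_prod_of_nonneg fun _ _ => (Real.exp_pos _).le, ← Real.exp_sum]
    refine ENNReal.ofReal_le_ofReal (Real.exp_le_exp.mpr ?_)
    rw [U_decomp _ _ (gbox_disjoint S) hX, card_decomp _ _ (gbox_disjoint S) hX, sum_sub_distrib,
      mul_sum]
    have : (S2 X fun x y => if ∃ b ∈ grid m, x ∈ gbox S b ∧ y ∈ gbox S b then 0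
        else phi H a (dist x y)) ≤ S2 X fun _ _ => 0 := by
      refine S2_mono fun x hx y hy => ?_
      split_ifs with h'
      · exact le_rfl
      · obtain ⟨b, hb, hxb⟩ := Set.mem_iUnion₂.mp (hX x hx)
        obtain ⟨b', hb', hyb⟩ := Set.mem_iUnion₂.mp (hX y hy)
        rw [phi_far (gbox_far (fun e : b = b' => h' ⟨b, hb, hxb, e ▸ hyb⟩) hxb hyb)]
        exact neg_nonpos.mpr (h.Psi_nonneg _)
    rw [S2_const] at this
    linarith)
  simp only [gbox, conf_tbox, prod_const, card_grid, one_mul] at h1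
  rw [h.Xi_eq μ S, ← ENNReal.ofReal_pow (Real.exp_pos _).le, ← Real.exp_nat_mul] at h1
  exact_mod_cast h1

theorem Good.tendsto_press (h : Good H a n) (μ : ℝ) :
    Tendsto (fun L : ℝ => lg H a μ L / L ^ 3) atTop (𝓝 (press H a μ)) := by
  have hinv : ∀ c : ℝ, Tendsto (fun L : ℝ => c / L) atTop (𝓝 0) := fun c =>
    tendsto_const_nhds.div_atTop tendsto_id
  rw [tendsto_order]
  constructor
  · intro c hc
    obtain ⟨S, hS⟩ := exists_lt_of_lt_ciSup hc
    have h1 : Tendsto (fun L : ℝ => (1 / ((S : ℝ) + 3) - 1 / L) ^ 3 * lg H a μ S) atTop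
        (𝓝 ((1 / ((S : ℝ) + 3) - 0) ^ 3 * lg H a μ S)) :=
      ((tendsto_const_nhds.sub (hinv 1)).pow 3).mul_const _
    have h2 : c < (1 / ((S : ℝ) + 3) - 0) ^ 3 * lg H a μ S := by
      refine hS.trans_eq ?_; field_simp; ring
    filter_upwards [h1.eventually (lt_mem_nhds h2), eventually_ge_atTop ((S : ℝ) + 3)] with L hL hL'
    refine hL.trans_le ?_
    have hS0 : (0 : ℝ) < S + 3 := by positivity
    have hL0 : 0 < L := hS0.trans_le hL'
    have h3 := h.superadd μ (S := S) (m := ⌊L / (S + 3)⌋₊) (L := L) (by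
      rw [← le_div_iff₀ hS0]; exact Nat.floor_le (by positivity))
    have h4 := (Nat.lt_floor_add_one (L / (S + 3))).le
    rw [le_div_iff₀ (by positivity)]
    refine le_trans ?_ h3
    rw [mul_right_comm, ← mul_pow]
    refine mul_le_mul_of_nonneg_right (pow_le_pow_left₀ ?_ ?_ 3) (h.lg_nonneg _ _)
    · refine mul_nonneg (sub_nonneg.mpr (one_div_le_one_div_of_le hS0 hL')) hL0.le
    · have : (1 / ((S : ℝ) + 3) - 1 / L) * L = L / (S + 3) - 1 := by field_simp
      linarith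
  · intro c hc
    have h1 : Tendsto (fun L : ℝ => (1 + 4 / L) ^ 3 * press H a μ) atTop
        (𝓝 ((1 + 0) ^ 3 * press H a μ)) := ((tendsto_const_nhds.add (hinv 4)).pow 3).mul_const _
    filter_upwards [h1.eventually (gt_mem_nhds (by simpa using hc)), eventually_gt_atTop 0]
      with L hL hL0
    refine lt_of_le_of_lt ?_ hL
    rw [div_le_iff₀ (by positivity)]
    refine (h.lg_mono μ (Nat.le_ceil L)).trans ((h.lg_le_press μ _).trans ?_)
    rw [mul_right_comm, ← mul_pow]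
    refine mul_le_mul_of_nonneg_right (pow_le_pow_left₀ (by positivity) ?_ 3) (h.press_nonneg _)
    have h2 := Nat.ceil_lt_add_one hL0.le
    have : (1 + 4 / L) * L = L + 4 := by field_simp
    linarith

lemma exists_near (k m : ℕ) (hm : 2 * k + 3 ≤ m) {b : Fin 3 → ℕ} (hb : b ∈ grid m) :
    ∃ T ⊆ grid m, T.card = (k + 1) ^ 3 ∧ b ∉ T ∧
      ∀ b' ∈ T, ∀ i, |(b i : ℝ) - b' i| ≤ k + 1 := by
  have key : ∀ i, ∃ J ⊆ range m, J.card = k + 1 ∧ b i ∉ J ∧ ∀ j ∈ J, |(b i : ℝ) - j| ≤ k + 1 := by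
    intro i
    have hi := mem_range.mp (Fintype.mem_piFinset.mp hb i)
    by_cases h : b i + k + 1 < m
    · refine ⟨Ioc (b i) (b i + k + 1), fun j hj => ?_, by simp; omega, by simp, fun j hj => ?_⟩
      · rw [mem_Ioc] at hj; rw [mem_range]; omega
      · rw [mem_Ioc] at hj
        have h1 : (b i : ℝ) < j := by exact_mod_cast hj.1
        have h2 : (j : ℝ) ≤ b i + k + 1 := by exact_mod_cast hj.2
        rw [abs_le]; constructor <;> linarith
    · refine ⟨Ico (b i - (k + 1)) (b i), fun j hj => ?_, by simp; omega, by simp, fun j hj => ?_⟩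
      · rw [mem_Ico] at hj; rw [mem_range]; omega
      · rw [mem_Ico] at hj
        have h1 : (j : ℝ) < b i := by exact_mod_cast hj.2
        have h2 : (b i : ℝ) ≤ j + k + 1 := by exact_mod_cast (by omega : b i ≤ j + k + 1)
        rw [abs_le]; constructor <;> linarith
  choose J hJ1 hJ2 hJ3 hJ4 using key
  refine ⟨Fintype.piFinset J, Fintype.piFinset_subset _ _ hJ1, by simp [hJ2], fun h => ?_,
    fun b' hb' i => hJ4 i _ (Fintype.mem_piFinset.mp hb' i)⟩
  exact hJ3 0 (Fintype.mem_piFinset.mp h 0)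

open Classical in
lemma trial_psi (k m : ℕ) (hm : 2 * k + 3 ≤ m) {X : Multiset Space}
    (hX : ∀ x ∈ X, x ∈ ⋃ b ∈ grid m, gbox 1 b)
    (h1 : ∀ b ∈ grid m, (X.filter (· ∈ gbox 1 b)).card = 1) :
    (X.card : ℝ) ≤ S2 X fun x y => if ∃ b ∈ grid m, x ∈ gbox 1 b ∧ y ∈ gbox 1 b then 0
        else psi k (dist x y) := by
  rw [← mul_one (X.card : ℝ), ← S1_const]
  refine S1_mono fun x hx => ?_
  obtain ⟨b, hb, hxb⟩ := Set.mem_iUnion₂.mp (hX x hx)
  obtain ⟨T, hT1, hT2, hT3, hT4⟩ := exists_near k m hm hb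
  rw [S1_decomp _ _ (gbox_disjoint 1) hX]
  refine le_trans ?_ (sum_le_sum_of_subset_of_nonneg hT1 fun b' _ _ => S1_nonneg fun y _ => by
    dsimp only; split_ifs; exact le_rfl; exact psi_nonneg _ _)
  have h2 : ∀ b' ∈ T, S1 (X.filter (· ∈ gbox 1 b')) (fun y =>
      if ∃ b ∈ grid m, x ∈ gbox 1 b ∧ y ∈ gbox 1 b then 0 else psi k (dist x y)) =
      (((k : ℝ) + 1) ^ 3)⁻¹ := by
    intro b' hb'
    rw [S1_congr (h := fun _ => (((k : ℝ) + 1) ^ 3)⁻¹), S1_const, h1 b' (hT1 hb')]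
    · simp
    · intro y hy
      have hyb := (Multiset.mem_filter.mp hy).2
      rw [if_neg, psi, if_pos]
      · have := dist_le_of_coord (x := x) (y := y) (m := 5 * (k + 1)) fun i => by
          have e1 := mem_tbox.mp hxb i
          have e2 := mem_tbox.mp hyb i
          have e3 := abs_le.mp (hT4 b' hb' i)
          have e4 : (0 : ℝ) ≤ k := Nat.cast_nonneg k
          push_cast at e1 e2
          rw [abs_le]; constructor <;> linarith
        linarith
      · rintro ⟨b'', -, e1, e2⟩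
        by_cases e3 : b'' = b
        · subst e3
          exact (gbox_disjoint 1 fun e : b'' = b' => hT3 (e ▸ hb')).le_bot ⟨e2, hyb⟩
        · exact (gbox_disjoint 1 e3).le_bot ⟨e1, hxb⟩
  rw [sum_congr rfl h2, sum_const, hT2, nsmul_eq_mul]
  push_cast
  rw [mul_inv_cancel₀ (by positivity)]

open Classical in
theorem Good.press_ge (h : Good H a n) (μ : ℝ) : (μ + n / 2) / 125 ≤ press H a μ := by
  have key : ∀ K : ℕ, (μ + (∑ k ∈ range K, a k) / 2) / 125 ≤ press H a μ := by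
    intro K
    obtain ⟨m, hm⟩ : ∃ m, m = 2 * K + 3 := ⟨_, rfl⟩
    obtain ⟨c, hc⟩ : ∃ c, c = μ + (∑ k ∈ range K, a k) / 2 := ⟨_, rfl⟩
    rw [← hc]
    have h1 := Xi_ge_prod (H := H) (a := a) (μ := μ) (S := 1) (m := m) (L := (4 * m : ℕ))
      (by push_cast; linarith) (c := ENNReal.ofReal (Real.exp (m ^ 3 * c))) ENNReal.ofReal_ne_top
      (meas_card fun j => if j = 1 then 1 else 0) (by
        intro X hX
        by_cases h2 : ∀ b ∈ grid m, (X.filter (· ∈ gbox 1 b)).card = 1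
        · rw [prod_congr rfl fun b hb => if_pos (h2 b hb), prod_const_one, mul_one]
          refine ENNReal.ofReal_le_ofReal (Real.exp_le_exp.mpr ?_)
          have h3 : (X.card : ℝ) = m ^ 3 := by
            rw [card_decomp _ _ (gbox_disjoint 1) hX, sum_congr rfl fun b hb => by rw [h2 b hb]]
            simp [card_grid]
          have h4 : ∀ b ∈ grid m, U H a (X.filter (· ∈ gbox 1 b)) = 0 := by
            intro b hb
            obtain ⟨y, hy⟩ := Multiset.card_eq_one.mp (h2 b hb)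
            rw [hy]; simp [U, S2, S1]
          have h5 : (S2 X fun x y => if ∃ b ∈ grid m, x ∈ gbox 1 b ∧ y ∈ gbox 1 b then 0
              else phi H a (dist x y)) ≤ S2 X fun x y => ∑ k ∈ range K, (-a k) *
                (if ∃ b ∈ grid m, x ∈ gbox 1 b ∧ y ∈ gbox 1 b then 0 else psi k (dist x y)) := by
            refine S2_mono fun x hx y hy => ?_
            split_ifs with h'
            · simp
            · obtain ⟨b, hb, hxb⟩ := Set.mem_iUnion₂.mp (hX x hx)
              obtain ⟨b', hb', hyb⟩ := Set.mem_iUnion₂.mp (hX y hy)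
              rw [phi_far (gbox_far (fun e : b = b' => h' ⟨b, hb, hxb, e ▸ hyb⟩) hxb hyb)]
              simp only [neg_mul, sum_neg_distrib, neg_le_neg_iff]
              exact sum_le_hasSum _ (fun k _ => mul_nonneg (h.nonneg k) (psi_nonneg _ _))
                (h.hasSum_Psi _)
          rw [S2_sum] at h5
          simp only [S2_mul] at h5
          have h6 : ∑ k ∈ range K, (-a k) * (S2 X fun x y =>
              if ∃ b ∈ grid m, x ∈ gbox 1 b ∧ y ∈ gbox 1 b then 0 else psi k (dist x y)) ≤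
              ∑ k ∈ range K, (-a k) * X.card := sum_le_sum fun k hk =>
            mul_le_mul_of_nonpos_left (trial_psi k m (by have := mem_range.mp hk; omega) hX h2)
              (neg_nonpos.mpr (h.nonneg k))
          rw [← sum_mul, sum_neg_distrib] at h6
          rw [U_decomp _ _ (gbox_disjoint 1) hX, sum_eq_zero h4, hc, ← h3]
          linarith
        · push Not at h2
          obtain ⟨b, hb, h2⟩ := h2
          rw [prod_eq_zero hb (if_neg h2)]; simp)
    simp only [conf_one, Measure.restrict_apply_univ, gbox, volume_tbox] at h1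
    rw [volume_box (by simp)] at h1
    simp only [Nat.cast_one, one_pow, ENNReal.ofReal_one, prod_const_one, mul_one] at h1
    have h2 := (h.le_lg_iff.mpr h1).trans (h.lg_le_press μ (4 * m))
    have hm3 : (3 : ℝ) ≤ m := by exact_mod_cast (by omega : 3 ≤ m)
    have h3 : (((4 * m : ℕ) : ℝ) + 3) ^ 3 ≤ (5 * m) ^ 3 := by
      push_cast; gcongr; linarith
    have h4 := h2.trans (mul_le_mul_of_nonneg_right h3 (h.press_nonneg μ))
    have h5 : (0 : ℝ) < (m : ℝ) ^ 3 := by positivity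
    have : (m : ℝ) ^ 3 * c ≤ (m : ℝ) ^ 3 * (125 * press H a μ) := by linarith [h4, mul_pow (5 : ℝ) m 3]
    have := le_of_mul_le_mul_left this h5
    linarith
  exact le_of_tendsto' (((h.hasSum.tendsto_sum_nat.div_const 2).const_add μ).div_const 125) key

end Vale.Agent.P171
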