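import Vale.Agent.P171.Press

/-! The upper bound on the pressure after adding a long range attraction. -/

namespace Vale.Agent.P171

open MeasureTheory Finset Filter
open scoped ENNReal Topology

variable {a a' : ℕ → ℝ} {n n' H : ℝ}

/-- The index of the cube of side `S` of the shifted grid containing a point. -/
noncomputable def bidx (S s : ℕ) (x : Space) : Fin 3 → ℤ := fun i => (cell x i + s) / S

/-- The cubes of the shifted grid. -/
def sbox (S s : ℕ) (b : Fin 3 → ℤ) : Set Space := {x | bidx S s x = b}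

lemma sbox_disjoint (S s : ℕ) : Pairwise fun b b' => Disjoint (sbox S s b) (sbox S s b') := by
  intro b b' h
  rw [Set.disjoint_left]
  intro x hx hx'
  exact h (Eq.trans (Eq.symm hx) hx')

lemma measurableSet_sbox (S s : ℕ) (b : Fin 3 → ℤ) : MeasurableSet (sbox S s b) :=
  measurable_cell (MeasurableSet.of_discrete (s := {c : Fin 3 → ℤ | (fun i => (c i + (s : ℤ)) / (S : ℤ)) = b}))

lemma cell_mem_of_sbox {S s : ℕ} (hS : 0 < S) {b : Fin 3 → ℤ} {x : Space} (hx : x ∈ sbox S s b)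
    (i : Fin 3) : cell x i ∈ Ico (S * b i - s) (S * b i - s + S) := by
  have h : (cell x i + s) / S = b i := congrFun hx i
  have hS' : (0 : ℤ) < S := by exact_mod_cast hS
  have h1 := Int.mul_ediv_self_le (x := cell x i + s) hS'.ne'
  have h2 := Int.lt_mul_ediv_self_add (x := cell x i + s) hS'
  rw [h] at h1 h2
  rw [mem_Ico]; constructor <;> linarith

lemma sbox_subset {S s : ℕ} (hS : 0 < S) (b : Fin 3 → ℤ) :
    sbox S s b ⊆ tbox (fun i => S * b i - s) S := by
  intro x hx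
  rw [mem_tbox]
  intro i
  have h := mem_Ico.mp (cell_mem_of_sbox hS hx i)
  have h1 : (((S * b i - s : ℤ)) : ℝ) ≤ (cell x i : ℝ) := by exact_mod_cast h.1
  have h2 : (cell x i : ℝ) + 1 ≤ ((S * b i - s + S : ℤ) : ℝ) := by exact_mod_cast h.2
  have h3 := Int.floor_le (x i)
  have h4 := Int.lt_floor_add_one (x i)
  unfold cell at h1 h2
  push_cast at h1 h2
  constructor <;> linarith

/-- Indices of the cubes covering the cube of side `m S`. -/
noncomputable def zgrid (m : ℕ) : Finset (Fin 3 → ℤ) := Fintype.piFinset fun _ => Icc (0 : ℤ) m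

lemma card_zgrid (m : ℕ) : (zgrid m).card = (m + 1) ^ 3 := by
  simp [zgrid]

lemma box_subset_sbox {S s m : ℕ} (hs : s < S) :
    box ((m * S : ℕ) : ℝ) ⊆ ⋃ b ∈ zgrid m, sbox S s b := by
  intro x hx
  refine Set.mem_iUnion₂.mpr ⟨bidx S s x, ?_, rfl⟩
  rw [zgrid, Fintype.mem_piFinset]
  intro i
  have h1 : 0 ≤ cell x i := Int.floor_nonneg.mpr (hx i).1
  have h2 : cell x i ≤ (m * S : ℕ) := by
    exact (Int.floor_le_floor (hx i).2).trans (Int.floor_natCast _).le
  have hS : (0 : ℤ) < S := by omega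
  rw [mem_Icc]
  refine ⟨Int.ediv_nonneg (by omega) hS.le, Int.lt_add_one_iff.mp ?_⟩
  rw [bidx, Int.ediv_lt_iff_lt_mul hS]
  push_cast at h2
  have : (s : ℤ) < S := by exact_mod_cast hs
  linarith

lemma same_iff {S s : ℕ} {B : Finset (Fin 3 → ℤ)} {x y : Space} (hx : x ∈ ⋃ b ∈ B, sbox S s b) :
    (∃ b ∈ B, x ∈ sbox S s b ∧ y ∈ sbox S s b) ↔ bidx S s x = bidx S s y := by
  refine ⟨fun ⟨b, _, h1, h2⟩ => Eq.trans h1 (Eq.symm h2), fun h => ?_⟩
  obtain ⟨b, hb, hxb⟩ := Set.mem_iUnion₂.mp hx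
  exact ⟨b, hb, hxb, Eq.trans h.symm hxb⟩

/-- The average cost of cutting along the shifted grids. -/
noncomputable def eta (a : ℕ → ℝ) (S : ℕ) : ℝ := 
  23 ^ 3 * ∑' j : ℕ, a j * min 1 (33 * ((j : ℝ) + 1) / S)

lemma Adm.summable_eta (h : Adm a n) (S : ℕ) :
    Summable fun j : ℕ => a j * min 1 (33 * ((j : ℝ) + 1) / S) :=
  Summable.of_nonneg_of_le (fun j => mul_nonneg (h.nonneg j) (by positivity))
    (fun j => mul_le_of_le_one_right (h.nonneg j) (min_le_left _ _)) h.hasSum.summable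

lemma Adm.eta_nonneg (h : Adm a n) (S : ℕ) : 0 ≤ eta a S :=
  mul_nonneg (by norm_num) (tsum_nonneg fun j => mul_nonneg (h.nonneg j) (by positivity))

lemma Adm.tendsto_eta (h : Adm a n) : Tendsto (eta a) atTop (𝓝 0) := by
  have := tendsto_tsum_of_dominated_convergence (𝓕 := atTop)
    (f := fun (S : ℕ) (j : ℕ) => a j * min 1 (33 * ((j : ℝ) + 1) / S)) (g := fun _ => 0)
    h.hasSum.summable (fun j => by
      have h1 : Tendsto (fun S : ℕ => 33 * ((j : ℝ) + 1) / S) atTop (𝓝 0) :=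
        tendsto_const_div_atTop_nhds_zero_nat _
      simpa using ((tendsto_const_nhds (x := (1 : ℝ))).min h1).const_mul (a j))
    (Eventually.of_forall fun S j => by
      rw [Real.norm_of_nonneg (mul_nonneg (h.nonneg j) (by positivity))]
      exact mul_le_of_le_one_right (h.nonneg j) (min_le_left _ _))
  unfold eta
  simpa using this.const_mul (23 ^ 3)

lemma split_count {S : ℕ} (hS : 0 < S) (j : ℕ) (x y : Space) :
    (((range S).filter fun s => bidx S s x ≠ bidx S s y).card : ℝ) * psi j (dist x y) ≤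
      S * min 1 (33 * ((j : ℝ) + 1) / S) * psi j (dist x y) := by
  by_cases hd : dist x y ≤ 10 * (j + 1)
  · refine mul_le_mul_of_nonneg_right ?_ (psi_nonneg _ _)
    have hS' : (0 : ℝ) < S := by exact_mod_cast hS
    rw [mul_min_of_nonneg _ _ hS'.le, mul_one, mul_div_cancel₀ _ hS'.ne', le_min_iff]
    constructor
    · exact_mod_cast (card_filter_le _ _).trans (card_range S).le
    · have h1 : ((range S).filter fun s => bidx S s x ≠ bidx S s y) ⊆ univ.biUnion fun i : Fin 3 =>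
          (range S).filter fun s : ℕ => (cell x i + s) / S ≠ (cell y i + s) / S := by
        intro s hs
        obtain ⟨i, hi⟩ := Function.ne_iff.mp (mem_filter.mp hs).2
        exact mem_biUnion.mpr ⟨i, mem_univ _, mem_filter.mpr ⟨(mem_filter.mp hs).1, hi⟩⟩
      have h2 := (card_le_card h1).trans (card_biUnion_le_card_mul _ _ (10 * (j + 1) + 1)
        fun i _ => shift_count _ _ S _ (cell_near (D := 10 * (j + 1)) (by exact_mod_cast hd) i))
      have h3 : ((range S).filter fun s => bidx S s x ≠ bidx S s y).card ≤ 33 * (j + 1) := by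
        simp only [card_univ, Fintype.card_fin] at h2; omega
      exact_mod_cast h3
  · simp [psi, hd]

lemma Adm.exists_shift (h : Adm a n) {S : ℕ} (hS : 0 < S) (X : Multiset Space) :
    ∃ s ∈ range S, (S2 X fun x y => if bidx S s x = bidx S s y then 0 else Psi a (dist x y)) ≤
      eta a S * Q X := by
  refine exists_le_of_sum_le (nonempty_range_iff.mpr hS.ne') ?_
  rw [← S2_sum, sum_const, card_range, nsmul_eq_mul]
  have h1 : ∀ x y : Space, HasSum (fun j => a j *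
      ((((range S).filter fun s => bidx S s x ≠ bidx S s y).card : ℝ) * psi j (dist x y)))
      (∑ s ∈ range S, if bidx S s x = bidx S s y then 0 else Psi a (dist x y)) := by
    intro x y
    have := (h.hasSum_Psi (dist x y)).mul_left
      (((range S).filter fun s => bidx S s x ≠ bidx S s y).card : ℝ)
    rw [sum_ite, sum_const_zero, zero_add, sum_const, nsmul_eq_mul]
    simpa only [mul_left_comm] using this
  have h2 := (h.summable_eta S).hasSum.mul_right (S * 23 ^ 3 * Q X)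
  refine (hasSum_le (fun j => ?_) (hasSum_S2 h1) h2).trans (le_of_eq (by unfold eta; ring))
  rw [S2_mul, mul_assoc]
  refine mul_le_mul_of_nonneg_left ?_ (h.nonneg j)
  refine (S2_mono fun x _ y _ => split_count hS j x y).trans ?_
  rw [S2_mul]
  refine (mul_le_mul_of_nonneg_left (S2_psi_le j X) (by positivity)).trans (le_of_eq (by ring))

open Classical in
lemma S2_psi_box (k s : ℕ) {B : Finset (Fin 3 → ℤ)} {X : Multiset Space}
    (hX : ∀ x ∈ X, x ∈ ⋃ b ∈ B, sbox (k + 1) s b) :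
    S2 X (fun x y => psi k (dist x y)) ≤ 23 ^ 3 / ((k : ℝ) + 1) ^ 3 *
      ∑ b ∈ B, ((X.filter (· ∈ sbox (k + 1) s b)).card : ℝ) ^ 2 := by
  have h1 : S2 X (fun x y => psi k (dist x y)) ≤ (((k : ℝ) + 1) ^ 3)⁻¹ * S2 X (fun x y =>
      if ∀ i, |bidx (k + 1) s x i - bidx (k + 1) s y i| ≤ (11 : ℕ) then 1 else 0) := by
    rw [← S2_mul]
    refine S2_mono fun x _ y _ => ?_
    unfold psi
    split_ifs with h h'
    · simp
    · refine absurd (fun i => ?_) h'
      have e := abs_le.mp (cell_near (D := 10 * (k + 1)) (by exact_mod_cast h) i)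
      have hS : (0 : ℤ) < (k + 1 : ℕ) := by omega
      have aux : ∀ u v : ℤ, u ≤ v + 11 * (k + 1 : ℕ) → u / (k + 1 : ℕ) ≤ v / (k + 1 : ℕ) + 11 := by
        intro u v huv
        rw [← Int.add_mul_ediv_right _ _ hS.ne']
        exact Int.ediv_le_ediv hS huv
      have e1 := aux (cell x i + s) (cell y i + s) (by push_cast at e ⊢; omega)
      have e2 := aux (cell y i + s) (cell x i + s) (by push_cast at e ⊢; omega)
      unfold bidx
      rw [abs_le]; constructor <;> push_cast at e1 e2 ⊢ <;> linarith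
    · positivity
    · simp
  have h2 := schur_near X (bidx (k + 1) s) 11
  have h3 : (S2 X fun x y => if bidx (k + 1) s x = bidx (k + 1) s y then 1 else 0) =
      ∑ b ∈ B, ((X.filter (· ∈ sbox (k + 1) s b)).card : ℝ) ^ 2 := by
    rw [S2_decomp B _ (sbox_disjoint (k + 1) s), S2_congr (h := fun _ _ => 0), S2_const, mul_zero,
      add_zero]
    · refine sum_congr rfl fun b _ => ?_
      rw [S2_congr (h := fun _ _ => 1), S2_const, mul_one]
      intro x hx y hy
      exact if_pos (Eq.trans (Multiset.mem_filter.mp hx).2 (Eq.symm (Multiset.mem_filter.mp hy).2))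
    · intro x hx y _
      simp only [same_iff (hX x hx)]
      split_ifs <;> rfl
  rw [h3] at h2
  refine h1.trans ((mul_le_mul_of_nonneg_left h2 (by positivity)).trans (le_of_eq ?_))
  push_cast; ring

open Classical in
lemma Q_decomp {S s : ℕ} {B : Finset (Fin 3 → ℤ)} {X : Multiset Space}
    (hX : ∀ x ∈ X, x ∈ ⋃ b ∈ B, sbox S s b) :
    Q X = ∑ b ∈ B, Q (X.filter (· ∈ sbox S s b)) := by
  rw [Q, S2_decomp B _ (sbox_disjoint S s), S2_congr (X := X) (h := fun _ _ => 0), S2_const,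
    mul_zero, add_zero]
  · rfl
  · intro x hx y _
    simp only [same_iff (hX x hx)]
    split_ifs with h h'
    · rfl
    · exact absurd (by unfold bidx; rw [h']) h
    · rfl

lemma card_sq_le {S s : ℕ} (hS : 0 < S) {b : Fin 3 → ℤ} {Y : Multiset Space}
    (hY : ∀ y ∈ Y, y ∈ sbox S s b) : (Y.card : ℝ) ^ 2 ≤ (S : ℝ) ^ 3 * Q Y := by
  obtain ⟨T, hT⟩ : ∃ T, T = Fintype.piFinset fun i => Ico (S * b i - s) (S * b i - s + S) :=
    ⟨_, rfl⟩
  have hc : T.card ≤ S ^ 3 := by rw [hT]; simp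
  have h1 := schur Y cell (fun u v => u ∈ T ∧ v ∈ T) (fun _ _ h => h.symm) (S ^ 3)
    fun _ => ⟨T, hc, fun _ h => h.2⟩
  have h2 : ∀ y ∈ Y, cell y ∈ T := fun y hy => by
    rw [hT, Fintype.mem_piFinset]; exact cell_mem_of_sbox hS (hY y hy)
  rw [S2_congr (h := fun _ _ => 1) fun x hx y hy => if_pos ⟨h2 x hx, h2 y hy⟩, S2_const,
    mul_one] at h1
  push_cast at h1
  exact h1

/-- The majorant of the modified weight in one cube. -/
noncomputable def maj (H : ℝ) (a : ℕ → ℝ) (μ h c₁ c₂ c₃ : ℝ) (Y : Multiset Space) : ℝ≥0∞ :=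
  ENNReal.ofReal (Real.exp c₁) * ENNReal.ofReal (Real.exp ((μ + H / 2) * Y.card)) +
    (ENNReal.ofReal (Real.exp c₂) * wt H a μ Y + ENNReal.ofReal (Real.exp c₃) * wt H a (μ + h) Y)

lemma le_maj (hg : Good H a n) {μ h η τ ρ σ q V : ℝ} (hV : 0 < V) (hη : 0 ≤ η) (hτ : 0 ≤ τ)
    (hh : 0 ≤ h) (h1 : η / 2 + τ ≤ 1 / 2) (h2 : τ * q ≤ h * (ρ - σ)) {Y : Multiset Space}
    (hY : (Y.card : ℝ) ^ 2 ≤ V * Q Y) :
    ENNReal.ofReal (Real.exp (μ * Y.card - U H a Y + η / 2 * Q Y + τ / V * (Y.card : ℝ) ^ 2)) ≤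
      maj H a μ h (-(q * V / 2)) (η / 2 * (q * V) + τ * ρ ^ 2 * V)
        (η / 2 * (q * V) - h * σ * V) Y := by
  have hm : ∀ u v w : ℝ, u ≤ v + w → ENNReal.ofReal (Real.exp u) ≤
      ENNReal.ofReal (Real.exp v) * ENNReal.ofReal (Real.exp w) := fun u v w h => by
    rw [← ENNReal.ofReal_mul (Real.exp_pos _).le, ← Real.exp_add]
    exact ENNReal.ofReal_le_ofReal (Real.exp_le_exp.mpr h)
  have h3 : τ / V * (Y.card : ℝ) ^ 2 ≤ τ * Q Y := by
    rw [div_mul_eq_mul_div, div_le_iff₀ hV]; nlinarith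
  have hQ := Q_nonneg Y
  unfold maj
  by_cases hq : Q Y ≤ q * V
  · have h4 : η / 2 * Q Y ≤ η / 2 * (q * V) := by gcongr
    by_cases hN : (Y.card : ℝ) ≤ ρ * V
    · refine le_add_left (le_add_right (hm _ _ _ ?_))
      have h5 : (Y.card : ℝ) ^ 2 ≤ (ρ * V) ^ 2 := by gcongr
      have h6 : τ / V * (Y.card : ℝ) ^ 2 ≤ τ / V * (ρ * V) ^ 2 := by gcongr
      have h7 : τ / V * (ρ * V) ^ 2 = τ * ρ ^ 2 * V := by field_simp
      linarith
    · refine le_add_left (le_add_left (hm _ _ _ ?_))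
      have h5 := mul_le_mul_of_nonneg_left hq hτ
      have h6 := mul_le_mul_of_nonneg_right h2 hV.le
      have h7 := mul_le_mul_of_nonneg_left (not_le.mp hN).le hh
      nlinarith
  · refine le_add_right (hm _ _ _ ?_)
    have h5 := hg.U_ge' Y
    have h6 := mul_le_mul_of_nonneg_right h1 hQ
    nlinarith

lemma Adm.meas_maj (hg : Adm a n) (μ h c₁ c₂ c₃ : ℝ) : Meas (maj H a μ h c₁ c₂ c₃) :=
  (meas_card fun j => ENNReal.ofReal (Real.exp c₁) *
    ENNReal.ofReal (Real.exp ((μ + H / 2) * j))).add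
    (((meas_const _).mul (hg.meas_wt μ)).add ((meas_const _).mul (hg.meas_wt _)))

lemma conf_maj (hg : Good H a n) {μ h c₁ c₂ c₃ E : ℝ} {S s : ℕ} (hS : 0 < S) (b : Fin 3 → ℤ)
    (h1 : c₁ + Real.exp (μ + H / 2) * (S : ℝ) ^ 3 ≤ E) (h2 : c₂ + lg H a μ S ≤ E)
    (h3 : c₃ + lg H a (μ + h) S ≤ E) :
    conf (volume.restrict (sbox S s b)) (maj H a μ h c₁ c₂ c₃) ≤
      ENNReal.ofReal (Real.exp (E + 2)) := by
  refine (conf_mono_set (sbox_subset hS b) _).trans ?_
  unfold maj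
  rw [conf_add _ (meas_card fun j => ENNReal.ofReal (Real.exp c₁) *
      ENNReal.ofReal (Real.exp ((μ + H / 2) * j))),
    conf_add _ ((meas_const _).mul (hg.meas_wt μ)), conf_const_mul _ ENNReal.ofReal_ne_top,
    conf_const_mul _ ENNReal.ofReal_ne_top, conf_const_mul _ ENNReal.ofReal_ne_top,
    conf_tbox_exp _ _ (Nat.cast_nonneg S), conf_tbox, conf_tbox, hg.Xi_eq, hg.Xi_eq]
  simp only [← ENNReal.ofReal_mul (Real.exp_pos _).le, ← Real.exp_add]
  rw [← ENNReal.ofReal_add (Real.exp_pos _).le (Real.exp_pos _).le,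
    ← ENNReal.ofReal_add (Real.exp_pos _).le (by positivity)]
  refine ENNReal.ofReal_le_ofReal ?_
  have e1 := Real.exp_le_exp.mpr h1
  have e2 := Real.exp_le_exp.mpr h2
  have e3 := Real.exp_le_exp.mpr h3
  have e4 := mul_le_mul_of_nonneg_left (Real.add_one_le_exp 2) (Real.exp_pos E).le
  rw [Real.exp_add E]
  linarith

open Classical in
lemma wt_le_sum (hg : Good H a n) {k : ℕ} {t μ : ℝ} (ht : 0 ≤ t)
    (hP : ∀ r, Psi a' r = Psi a r + t * psi k r) {G : Multiset Space → ℝ≥0∞}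
    (hG : ∀ Y : Multiset Space, (Y.card : ℝ) ^ 2 ≤ ((k : ℝ) + 1) ^ 3 * Q Y →
      ENNReal.ofReal (Real.exp (μ * Y.card - U H a Y + eta a (k + 1) / 2 * Q Y +
        t * 23 ^ 3 / 2 / ((k : ℝ) + 1) ^ 3 * (Y.card : ℝ) ^ 2)) ≤ G Y)
    (m : ℕ) {X : Multiset Space} (hX : ∀ x ∈ X, x ∈ box ((m * (k + 1) : ℕ) : ℝ)) :
    wt H a' μ X ≤ ∑ s ∈ range (k + 1), ∏ b ∈ zgrid m, G (X.filter (· ∈ sbox (k + 1) s b)) := by
  obtain ⟨s, hs, h1⟩ := hg.exists_shift (Nat.succ_pos k) X
  refine le_trans ?_ (single_le_sum (f := fun s => ∏ b ∈ zgrid m,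
    G (X.filter (· ∈ sbox (k + 1) s b))) (fun _ _ => zero_le) hs)
  have hX' : ∀ x ∈ X, x ∈ ⋃ b ∈ zgrid m, sbox (k + 1) s b :=
    fun x hx => box_subset_sbox (mem_range.mp hs) (hX x hx)
  refine le_trans ?_ (prod_le_prod' fun b _ => hG _ (by
    exact_mod_cast card_sq_le (Nat.succ_pos k) (b := b) fun y hy => (Multiset.mem_filter.mp hy).2))
  rw [← ENNReal.ofReal_prod_of_nonneg fun _ _ => (Real.exp_pos _).le, ← Real.exp_sum]
  refine ENNReal.ofReal_le_ofReal (Real.exp_le_exp.mpr ?_)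
  have h2 : U H a X - t / 2 * S2 X (fun x y => psi k (dist x y)) ≤ U H a' X := by
    have e1 : ∀ r, phi H a' r = phi H a r - t * psi k r := fun r => by
      unfold phi; rw [hP]; ring
    have e2 : 0 ≤ X.card * (t * psi k 0) :=
      mul_nonneg (Nat.cast_nonneg _) (mul_nonneg ht (psi_nonneg _ _))
    unfold U
    simp only [e1]
    rw [S2_sub, S2_mul]
    linarith
  have h3 := mul_le_mul_of_nonneg_left (S2_psi_box k s hX') (show 0 ≤ t / 2 by positivity)
  have h4 : (S2 X fun x y => (-1) * if bidx (k + 1) s x = bidx (k + 1) s y then 0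
      else Psi a (dist x y)) ≤ S2 X fun x y =>
        if ∃ b ∈ zgrid m, x ∈ sbox (k + 1) s b ∧ y ∈ sbox (k + 1) s b then 0
        else phi H a (dist x y) := by
    refine S2_mono fun x hx y _ => ?_
    simp only [same_iff (hX' x hx)]
    split_ifs
    · simp
    · have := hg.H_nonneg
      unfold phi; split_ifs <;> linarith
  rw [S2_mul] at h4
  rw [U_decomp _ _ (sbox_disjoint (k + 1) s) hX'] at h2
  simp only [sum_add_distrib, sum_sub_distrib, ← mul_sum]
  rw [← Q_decomp hX', ← card_decomp _ _ (sbox_disjoint (k + 1) s) hX']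
  have h5 : t * 23 ^ 3 / 2 / ((k : ℝ) + 1) ^ 3 = t / 2 * (23 ^ 3 / ((k : ℝ) + 1) ^ 3) := by ring
  rw [h5, mul_assoc]
  change _ ≤ eta a (k + 1) * Q X at h1
  linarith

open Classical in
lemma press_le_of_box (hg' : Good H a' n') {S : ℕ} (hS : 0 < S) {μ E : ℝ}
    {G : Multiset Space → ℝ≥0∞} (hm : Meas G)
    (h1 : ∀ (m : ℕ) (X : Multiset Space), (∀ x ∈ X, x ∈ box ((m * S : ℕ) : ℝ)) →
      wt H a' μ X ≤ ∑ s ∈ range S, ∏ b ∈ zgrid m, G (X.filter (· ∈ sbox S s b)))
    (h2 : ∀ s b, conf (volume.restrict (sbox S s b)) G ≤ ENNReal.ofReal (Real.exp E)) :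
    press H a' μ ≤ E / (S : ℝ) ^ 3 := by
  have hS' : (0 : ℝ) < S := by exact_mod_cast hS
  have h3 : ∀ m : ℕ, lg H a' μ (m * S : ℕ) ≤ S + ((m : ℝ) + 1) ^ 3 * E := by
    intro m
    rw [hg'.lg_le_iff]
    refine (conf_mono (measurableSet_box _) (h1 m)).trans ?_
    rw [conf_sum _ _ fun s => Meas.prod _ fun b _ => hm.filter (measurableSet_sbox S s b)]
    have h4 : ∀ s ∈ range S, conf (volume.restrict (box ((m * S : ℕ) : ℝ)))
        (fun X => ∏ b ∈ zgrid m, G (X.filter (· ∈ sbox S s b))) ≤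
        ENNReal.ofReal (Real.exp (((m : ℝ) + 1) ^ 3 * E)) := by
      intro s hs
      refine (conf_mono_set (box_subset_sbox (mem_range.mp hs)) _).trans ?_
      rw [conf_biUnion _ (measurableSet_sbox S s) (sbox_disjoint S s) (f := fun _ => G) fun _ => hm]
      refine (prod_le_prod' fun b _ => h2 s b).trans (le_of_eq ?_)
      rw [prod_const, card_zgrid, ← ENNReal.ofReal_pow (Real.exp_pos _).le, ← Real.exp_nat_mul]
      simp
    refine (sum_le_sum h4).trans ?_
    rw [sum_const, card_range, nsmul_eq_mul, Real.exp_add, ENNReal.ofReal_mul (Real.exp_pos _).le,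
      ← ENNReal.ofReal_natCast]
    gcongr
    linarith [Real.add_one_le_exp (S : ℝ)]
  have h4 : Tendsto (fun m : ℕ => ((m * S : ℕ) : ℝ)) atTop atTop :=
    tendsto_natCast_atTop_atTop.comp (tendsto_id.atTop_mul_const' hS)
  have h5 : Tendsto (fun m : ℕ => (S * (1 / (m : ℝ)) ^ 3 + (1 + 1 / (m : ℝ)) ^ 3 * E) / (S : ℝ) ^ 3)
      atTop (𝓝 ((S * 0 ^ 3 + (1 + 0) ^ 3 * E) / (S : ℝ) ^ 3)) :=
    (((tendsto_one_div_atTop_nhds_zero_nat.pow 3).const_mul _).add
      (((tendsto_one_div_atTop_nhds_zero_nat.const_add 1).pow 3).mul_const _)).div_const _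
  have h6 := le_of_tendsto_of_tendsto ((hg'.tendsto_press μ).comp h4) h5 (by
    filter_upwards [eventually_gt_atTop 0] with m hm0
    have : (0 : ℝ) < m := by exact_mod_cast hm0
    simp only [Function.comp]
    rw [div_le_iff₀ (by positivity)]
    refine (h3 m).trans (le_of_eq ?_)
    push_cast; field_simp)
  simpa using h6

theorem press_upper (hg : Good H a n) (hg' : Good H a' n') {k : ℕ} {t μ h ρ σ : ℝ} (ht : 0 ≤ t)
    (hP : ∀ r, Psi a' r = Psi a r + t * psi k r) (hh : 0 ≤ h) (hσ : 0 ≤ σ)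
    (h0 : press H a (μ + h) ≤ press H a μ + h * σ)
    (h1 : eta a (k + 1) / 2 + t * 23 ^ 3 / 2 ≤ 1 / 2)
    (h2 : t * 23 ^ 3 / 2 * (2 * Real.exp (μ + H / 2)) ≤ h * (ρ - σ)) :
    press H a' μ ≤ press H a μ + t * 23 ^ 3 / 2 * ρ ^ 2 +
      (eta a (k + 1) * Real.exp (μ + H / 2) + (63 * (press H a μ + h * σ) + 2) / (k + 1)) := by
  obtain ⟨S, hS⟩ : ∃ S : ℝ, S = k + 1 := ⟨_, rfl⟩
  have hS1 : 1 ≤ S := by rw [hS]; simp
  have hF := hg.press_nonneg μ
  have hη := hg.eta_nonneg (k + 1)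
  obtain ⟨F₁, hF₁⟩ : ∃ F₁, F₁ = press H a μ + h * σ := ⟨_, rfl⟩
  have hF₁0 : press H a μ ≤ F₁ := by rw [hF₁]; nlinarith
  obtain ⟨q, hq⟩ : ∃ q, q = Real.exp (μ + H / 2) := ⟨_, rfl⟩
  have hq0 : 0 < q := by rw [hq]; positivity
  have hc : ((k + 1 : ℕ) : ℝ) = S := by rw [hS]; simp
  have hS3 : (S + 3) ^ 3 ≤ S ^ 3 + 63 * S ^ 2 := by nlinarith
  have e1 := hg.lg_le_press μ (k + 1)
  have e2 := (hg.lg_le_press (μ + h) (k + 1)).trans (mul_le_mul_of_nonneg_left h0 (by positivity))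
  rw [hc] at e1 e2
  have e3 : 0 ≤ t * 23 ^ 3 / 2 * ρ ^ 2 * S ^ 3 := by positivity
  have e4 : 0 ≤ eta a (k + 1) * q * S ^ 3 := by positivity
  have e5 : 0 ≤ press H a μ * S ^ 3 := by positivity
  have e6 := mul_le_mul_of_nonneg_right hS3 hF
  have e7 := mul_le_mul_of_nonneg_right hS3 (hF.trans hF₁0)
  have e8 := mul_le_mul_of_nonneg_left hF₁0 (show 0 ≤ 63 * S ^ 2 by positivity)
  have e9 : S ^ 3 * F₁ = press H a μ * S ^ 3 + h * σ * S ^ 3 := by rw [hF₁]; ring
  have key := press_le_of_box hg' (Nat.succ_pos k) (μ := μ)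
    (E := (press H a μ + t * 23 ^ 3 / 2 * ρ ^ 2 + eta a (k + 1) * q) * S ^ 3 + 63 * S ^ 2 * F₁ + 2)
    (hg.meas_maj μ h _ _ _)
    (fun m X hX => wt_le_sum hg ht hP (fun Y hY => le_maj hg (by positivity) hη (by positivity)
      hh h1 h2 hY) m hX)
    (fun s b => conf_maj hg (Nat.succ_pos k) b
      (by simp only [Nat.succ_eq_add_one, hc, ← hS, ← hq]; nlinarith)
      (by simp only [Nat.succ_eq_add_one, hc, ← hS, ← hq]; nlinarith)
      (by simp only [Nat.succ_eq_add_one, hc, ← hS, ← hq]; rw [← hF₁] at e2; nlinarith [e9]))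
  refine key.trans ?_
  rw [Nat.succ_eq_add_one, hc, ← hS, ← hq, ← hF₁, div_le_iff₀ (by positivity)]
  have : (63 * F₁ + 2) / S * S ^ 3 = 63 * S ^ 2 * F₁ + 2 * S ^ 2 := by field_simp
  nlinarith

end Vale.Agent.P171
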